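import Mathlib

/-!
# P254, wedge class: definitions for the one-dimensional inequality (RAMP)

For a profile `R` on `[0,1]` we use the weighted moments
`mA R = ∫ z R`, `mM1 R = ∫ z² R`, `mM2 R = ∫ z³ R`, `mS R = ∫ z R²` (integrals over `[0,1]`),
the Green kernel `gk c z = min (z (1-c)) (c (1-z))` and its projection `pk c` on affine
functions in the space `L²(z dz)`.
-/

namespace Vale.Agent.Lib.P254.Ramp

/-- `∫₀¹ z R`. -/
noncomputable def mA (R : ℝ → ℝ) : ℝ := ∫ z in (0:ℝ)..1, z * R z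

/-- `∫₀¹ z² R`. -/
noncomputable def mM1 (R : ℝ → ℝ) : ℝ := ∫ z in (0:ℝ)..1, z ^ 2 * R z

/-- `∫₀¹ z³ R`. -/
noncomputable def mM2 (R : ℝ → ℝ) : ℝ := ∫ z in (0:ℝ)..1, z ^ 3 * R z

/-- `∫₀¹ z R²`. -/
noncomputable def mS (R : ℝ → ℝ) : ℝ := ∫ z in (0:ℝ)..1, z * (R z) ^ 2

/-- The Green kernel of `-d²/dz²` on `[0,1]` with zero boundary values. -/
noncomputable def gk (c z : ℝ) : ℝ := min (z * (1 - c)) (c * (1 - z))

/-- The projection of `gk c` on affine functions for the weight `z dz` on `[0,1]`. -/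
noncomputable def pk (c z : ℝ) : ℝ :=
  c * (1 - c) ^ 2 * (1 + 2 * c) * (1 - z) + c ^ 3 * (1 - c) * z

end Vale.Agent.Lib.P254.Ramp
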