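import Vale.Agent.Lib.P254.Ramp.Rect
import Vale.Agent.Lib.P254.Ramp.Defs
import Vale.Agent.Lib.P254.Two.Reduce0

/-!
# P254, wedge class: the body and its slices

For a continuous concave profile `R ≥ 0` on `[0,1]` the body

`wedge R = {x ∈ ℝ³ | 0 ≤ x₀ ≤ 1, |x₁| ≤ x₀, |x₂| ≤ R x₀}`

is compact and convex, invariant under the sign changes of the last two coordinates, and its
slices `x₀ = t` are the rectangles `[-t,t] × [-R t, R t]`.  The moment inequality of
`Two/Reduce0.lean` becomes the one-dimensional inequality (RAMP).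
-/

open MeasureTheory Set

namespace Vale.Agent.Lib.P254.Ramp

open Vale.Agent.Lib.P254

/-- The wedge body with profile `R`. -/
def wedge (R : ℝ → ℝ) : Set (Fin 3 → ℝ) :=
  {x | 0 ≤ x 0 ∧ x 0 ≤ 1 ∧ |x 1| ≤ x 0 ∧ |x 2| ≤ R (x 0)}

theorem wedge_convex {R : ℝ → ℝ} (hc : ConcaveOn ℝ (Icc 0 1) R) : Convex ℝ (wedge R) := by
  intro x hx y hy a b ha hb hab
  obtain ⟨hx0, hx1, hx2, hx3⟩ := hx
  obtain ⟨hy0, hy1, hy2, hy3⟩ := hy
  have e0 : (a • x + b • y) 0 = a * x 0 + b * y 0 := by simp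
  have e1 : (a • x + b • y) 1 = a * x 1 + b * y 1 := by simp
  have e2 : (a • x + b • y) 2 = a * x 2 + b * y 2 := by simp
  have hcc := hc.2 ⟨hx0, hx1⟩ ⟨hy0, hy1⟩ ha hb hab
  simp only [smul_eq_mul] at hcc
  refine ⟨?_, ?_, ?_, ?_⟩
  · rw [e0]
    positivity
  · rw [e0]
    calc a * x 0 + b * y 0 ≤ a * 1 + b * 1 :=
          add_le_add (mul_le_mul_of_nonneg_left hx1 ha) (mul_le_mul_of_nonneg_left hy1 hb)
      _ = 1 := by rw [mul_one, mul_one, hab]
  · rw [e0, e1]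
    calc |a * x 1 + b * y 1| ≤ |a * x 1| + |b * y 1| := abs_add_le _ _
      _ = a * |x 1| + b * |y 1| := by rw [abs_mul, abs_mul, abs_of_nonneg ha, abs_of_nonneg hb]
      _ ≤ a * x 0 + b * y 0 :=
          add_le_add (mul_le_mul_of_nonneg_left hx2 ha) (mul_le_mul_of_nonneg_left hy2 hb)
  · rw [e0, e2]
    calc |a * x 2 + b * y 2| ≤ |a * x 2| + |b * y 2| := abs_add_le _ _
      _ = a * |x 2| + b * |y 2| := by rw [abs_mul, abs_mul, abs_of_nonneg ha, abs_of_nonneg hb]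
      _ ≤ a * R (x 0) + b * R (y 0) :=
          add_le_add (mul_le_mul_of_nonneg_left hx3 ha) (mul_le_mul_of_nonneg_left hy3 hb)
      _ ≤ R (a * x 0 + b * y 0) := hcc

theorem wedge_flip1 {R : ℝ → ℝ} :
    ∀ x ∈ wedge R, Function.update x 1 (-(x 1)) ∈ wedge R := by
  intro x hx
  obtain ⟨hx0, hx1, hx2, hx3⟩ := hx
  have e0 : Function.update x 1 (-(x 1)) 0 = x 0 := Function.update_of_ne (by decide) _ _
  have e1 : Function.update x 1 (-(x 1)) 1 = -(x 1) := Function.update_self _ _ _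
  have e2 : Function.update x 1 (-(x 1)) 2 = x 2 := Function.update_of_ne (by decide) _ _
  refine ⟨?_, ?_, ?_, ?_⟩
  · rw [e0]
    exact hx0
  · rw [e0]
    exact hx1
  · rw [e0, e1, abs_neg]
    exact hx2
  · rw [e0, e2]
    exact hx3

theorem wedge_flip2 {R : ℝ → ℝ} :
    ∀ x ∈ wedge R, Function.update x 2 (-(x 2)) ∈ wedge R := by
  intro x hx
  obtain ⟨hx0, hx1, hx2, hx3⟩ := hx
  have e0 : Function.update x 2 (-(x 2)) 0 = x 0 := Function.update_of_ne (by decide) _ _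
  have e1 : Function.update x 2 (-(x 2)) 1 = x 1 := Function.update_of_ne (by decide) _ _
  have e2 : Function.update x 2 (-(x 2)) 2 = -(x 2) := Function.update_self _ _ _
  refine ⟨?_, ?_, ?_, ?_⟩
  · rw [e0]
    exact hx0
  · rw [e0]
    exact hx1
  · rw [e0, e1]
    exact hx2
  · rw [e0, e2, abs_neg]
    exact hx3

/-- The clamp of a real number to `[0,1]`. -/
noncomputable def clamp (t : ℝ) : ℝ := max 0 (min 1 t)

theorem clamp_mem (t : ℝ) : clamp t ∈ Icc (0:ℝ) 1 :=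
  ⟨le_max_left _ _, max_le zero_le_one (min_le_left _ _)⟩

theorem clamp_eq {t : ℝ} (h0 : 0 ≤ t) (h1 : t ≤ 1) : clamp t = t := by
  unfold clamp
  rw [min_eq_right h1, max_eq_right h0]

theorem continuous_clamp : Continuous clamp :=
  continuous_const.max (continuous_const.min continuous_id)

theorem wedge_isClosed {R : ℝ → ℝ} (hcont : ContinuousOn R (Icc 0 1)) :
    IsClosed (wedge R) := by
  have hRc : Continuous fun t : ℝ => R (clamp t) :=
    hcont.comp_continuous continuous_clamp clamp_mem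
  have heq : wedge R = {x : Fin 3 → ℝ | 0 ≤ x 0} ∩ {x | x 0 ≤ 1} ∩ {x | |x 1| ≤ x 0}
      ∩ {x | |x 2| ≤ R (clamp (x 0))} := by
    ext x
    constructor
    · rintro ⟨h0, h1, h2, h3⟩
      refine ⟨⟨⟨h0, h1⟩, h2⟩, ?_⟩
      show |x 2| ≤ R (clamp (x 0))
      rw [clamp_eq h0 h1]
      exact h3
    · rintro ⟨⟨⟨h0, h1⟩, h2⟩, h3⟩
      refine ⟨h0, h1, h2, ?_⟩
      have h3' : |x 2| ≤ R (clamp (x 0)) := h3
      rw [clamp_eq h0 h1] at h3'
      exact h3'
  rw [heq]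
  have c0 : Continuous fun x : Fin 3 → ℝ => x 0 := continuous_apply 0
  have c1 : Continuous fun x : Fin 3 → ℝ => x 1 := continuous_apply 1
  have c2 : Continuous fun x : Fin 3 → ℝ => x 2 := continuous_apply 2
  exact (((isClosed_le continuous_const c0).inter (isClosed_le c0 continuous_const)).inter
    (isClosed_le c1.abs c0)).inter (isClosed_le c2.abs (hRc.comp c0))

theorem wedge_isCompact {R : ℝ → ℝ} (hcont : ContinuousOn R (Icc 0 1)) :
    IsCompact (wedge R) := by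
  obtain ⟨M, hM⟩ := (isCompact_Icc.bddAbove_image hcont : BddAbove (R '' Icc (0:ℝ) 1))
  refine Metric.isCompact_of_isClosed_isBounded (wedge_isClosed hcont) ?_
  refine (Metric.isBounded_closedBall (x := (0 : Fin 3 → ℝ)) (r := max 1 M)).subset ?_
  intro x hx
  obtain ⟨hx0, hx1, hx2, hx3⟩ := hx
  rw [mem_closedBall_zero_iff, pi_norm_le_iff_of_nonneg (le_trans zero_le_one (le_max_left _ _))]
  intro i
  rw [Real.norm_eq_abs]
  have hRM : R (x 0) ≤ M := hM (mem_image_of_mem R ⟨hx0, hx1⟩)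
  fin_cases i
  · show |x 0| ≤ max 1 M
    rw [abs_of_nonneg hx0]
    exact le_trans hx1 (le_max_left _ _)
  · show |x 1| ≤ max 1 M
    exact le_trans (le_trans hx2 hx1) (le_max_left _ _)
  · show |x 2| ≤ max 1 M
    exact le_trans (le_trans hx3 hRM) (le_max_right _ _)

theorem wedge_interior {R : ℝ → ℝ} (hc : ConcaveOn ℝ (Icc 0 1) R)
    (hcont : ContinuousOn R (Icc 0 1)) (hpos : ∀ t ∈ Icc (0:ℝ) 1, 0 ≤ R t)
    (hne : ∃ t ∈ Icc (0:ℝ) 1, 0 < R t) : (interior (wedge R)).Nonempty := by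
  obtain ⟨t0, ht0, hRt0⟩ := hne
  have hhalf : (1 / 2 : ℝ) ∈ Icc (0:ℝ) 1 := ⟨by norm_num, by norm_num⟩
  have hmid := hc.2 ht0 hhalf (show (0:ℝ) ≤ 1 / 2 by norm_num) (show (0:ℝ) ≤ 1 / 2 by norm_num)
    (by norm_num)
  simp only [smul_eq_mul] at hmid
  have hRh : 0 ≤ R (1 / 2) := hpos _ hhalf
  set tm : ℝ := 1 / 2 * t0 + 1 / 2 * (1 / 2) with htm
  have htm0 : 1 / 4 ≤ tm := by
    have := ht0.1
    rw [htm]
    linarith
  have htm1 : tm ≤ 3 / 4 := by
    have := ht0.2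
    rw [htm]
    linarith
  have hRtm : 0 < R tm := by linarith
  have hcat : ContinuousAt R tm :=
    hcont.continuousAt (Icc_mem_nhds (by linarith) (by linarith))
  obtain ⟨δ, hδ, hδR⟩ := Metric.continuousAt_iff.mp hcat (R tm / 2) (by linarith)
  set U : Set (Fin 3 → ℝ) := {x | x 0 ∈ Ioo (tm - min δ (1 / 8)) (tm + min δ (1 / 8))}
    ∩ {x | x 1 ∈ Ioo (-(1 / 8 : ℝ)) (1 / 8)} ∩ {x | x 2 ∈ Ioo (-(R tm / 2)) (R tm / 2)} with hU
  have hUo : IsOpen U :=
    ((isOpen_Ioo.preimage (continuous_apply 0)).inter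
      (isOpen_Ioo.preimage (continuous_apply 1))).inter
      (isOpen_Ioo.preimage (continuous_apply 2))
  have hmin : 0 < min δ (1 / 8) := lt_min hδ (by norm_num)
  have hUK : U ⊆ wedge R := by
    rintro x ⟨⟨h0, h1⟩, h2⟩
    have h0' : x 0 ∈ Ioo (tm - min δ (1 / 8)) (tm + min δ (1 / 8)) := h0
    have h1' : x 1 ∈ Ioo (-(1 / 8 : ℝ)) (1 / 8) := h1
    have h2' : x 2 ∈ Ioo (-(R tm / 2)) (R tm / 2) := h2
    have hm8 : min δ (1 / 8) ≤ 1 / 8 := min_le_right _ _
    have hmδ : min δ (1 / 8) ≤ δ := min_le_left _ _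
    have hx0l : 1 / 8 < x 0 := by linarith [h0'.1]
    have hx0u : x 0 < 7 / 8 := by linarith [h0'.2]
    have hd : dist (x 0) tm < δ := by
      rw [Real.dist_eq, abs_lt]
      constructor
      · linarith [h0'.1]
      · linarith [h0'.2]
    have hR := hδR hd
    rw [Real.dist_eq, abs_lt] at hR
    refine ⟨by linarith, by linarith, ?_, ?_⟩
    · rw [abs_le]
      constructor
      · linarith [h1'.1]
      · linarith [h1'.2]
    · rw [abs_le]
      constructor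
      · linarith [h2'.1, hR.1]
      · linarith [h2'.2, hR.1]
  refine ⟨![tm, 0, 0], interior_maximal hUK hUo ?_⟩
  refine ⟨⟨?_, ?_⟩, ?_⟩
  · show (![tm, 0, 0] : Fin 3 → ℝ) 0 ∈ Ioo (tm - min δ (1 / 8)) (tm + min δ (1 / 8))
    simp only [Matrix.cons_val_zero]
    exact ⟨by linarith, by linarith⟩
  · show (![tm, 0, 0] : Fin 3 → ℝ) 1 ∈ Ioo (-(1 / 8 : ℝ)) (1 / 8)
    simp only [Matrix.cons_val_one, Matrix.cons_val_zero]
    exact ⟨by norm_num, by norm_num⟩
  · show (![tm, 0, 0] : Fin 3 → ℝ) 2 ∈ Ioo (-(R tm / 2)) (R tm / 2)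
    simp only [Matrix.cons_val_two, Matrix.tail_cons, Matrix.head_cons]
    exact ⟨by linarith, by linarith⟩

/-- The slices of the wedge. -/
theorem sec_wedge_of_mem (R : ℝ → ℝ) {t : ℝ} (ht : t ∈ Icc (0:ℝ) 1) :
    sec (wedge R) t = rect t (R t) := by
  ext y
  constructor
  · intro h
    have h' : (Fin.cons t y : Fin 3 → ℝ) ∈ wedge R := h
    exact ⟨h'.2.2.1, h'.2.2.2⟩
  · rintro ⟨h1, h2⟩
    show (Fin.cons t y : Fin 3 → ℝ) ∈ wedge R
    exact ⟨ht.1, ht.2, h1, h2⟩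

theorem sec_wedge_of_not_mem (R : ℝ → ℝ) {t : ℝ} (ht : t ∉ Icc (0:ℝ) 1) :
    sec (wedge R) t = ∅ := by
  ext y
  constructor
  · intro h
    have h' : (Fin.cons t y : Fin 3 → ℝ) ∈ wedge R := h
    exact ht ⟨h'.1, h'.2.1⟩
  · intro h
    exact False.elim h

/-- An integral over the line of a function vanishing outside `[0,1]`. -/
theorem int_line_eq (F f : ℝ → ℝ) (h1 : ∀ t ∈ Icc (0:ℝ) 1, F t = f t)
    (h0 : ∀ t, t ∉ Icc (0:ℝ) 1 → F t = 0) : ∫ t, F t = ∫ t in (0:ℝ)..1, f t := by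
  have hF : F = (Icc (0:ℝ) 1).indicator f := by
    funext t
    by_cases ht : t ∈ Icc (0:ℝ) 1
    · rw [indicator_of_mem ht, h1 t ht]
    · rw [indicator_of_notMem ht, h0 t ht]
  rw [hF, integral_indicator measurableSet_Icc, integral_Icc_eq_integral_Ioc,
    ← intervalIntegral.integral_of_le zero_le_one]

section slices

variable {R : ℝ → ℝ} (hpos : ∀ t ∈ Icc (0:ℝ) 1, 0 ≤ R t)

include hpos

theorem wedge_int_vol : ∫ t, vol (sec (wedge R) t) = 4 * mA R := by
  unfold mA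
  rw [← intervalIntegral.integral_const_mul]
  refine int_line_eq _ _ (fun t ht => ?_) (fun t ht => ?_)
  · rw [sec_wedge_of_mem R ht, vol_rect ht.1 (hpos t ht)]
    ring
  · rw [sec_wedge_of_not_mem R ht]
    simp [vol]

theorem wedge_int_t_vol : ∫ t, t * vol (sec (wedge R) t) = 4 * mM1 R := by
  unfold mM1
  rw [← intervalIntegral.integral_const_mul]
  refine int_line_eq _ _ (fun t ht => ?_) (fun t ht => ?_)
  · rw [sec_wedge_of_mem R ht, vol_rect ht.1 (hpos t ht)]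
    ring
  · rw [sec_wedge_of_not_mem R ht]
    simp [vol]

theorem wedge_int_t2_vol : ∫ t, t ^ 2 * vol (sec (wedge R) t) = 4 * mM2 R := by
  unfold mM2
  rw [← intervalIntegral.integral_const_mul]
  refine int_line_eq _ _ (fun t ht => ?_) (fun t ht => ?_)
  · rw [sec_wedge_of_mem R ht, vol_rect ht.1 (hpos t ht)]
    ring
  · rw [sec_wedge_of_not_mem R ht]
    simp [vol]

theorem wedge_int_abs0 : ∫ t, ∫ y in sec (wedge R) t, |y 0| = 2 * mM1 R := by
  unfold mM1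
  rw [← intervalIntegral.integral_const_mul]
  refine int_line_eq _ _ (fun t ht => ?_) (fun t ht => ?_)
  · rw [sec_wedge_of_mem R ht, int_abs0_rect ht.1 (hpos t ht)]
    ring
  · rw [sec_wedge_of_not_mem R ht]
    simp

theorem wedge_int_abs1 : ∫ t, ∫ y in sec (wedge R) t, |y 1| = 2 * mS R := by
  unfold mS
  rw [← intervalIntegral.integral_const_mul]
  refine int_line_eq _ _ (fun t ht => ?_) (fun t ht => ?_)
  · rw [sec_wedge_of_mem R ht, int_abs1_rect ht.1 (hpos t ht)]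
    ring
  · rw [sec_wedge_of_not_mem R ht]
    simp

end slices

/-- **The wedge class.** If the profile `R` is continuous, concave and nonnegative on `[0,1]`,
not identically zero, and satisfies the one-dimensional inequality (RAMP), then the wedge body
has isotropic constant at most that of the tetrahedra. -/
theorem wedge_isotropic_le_of_ramp (R : ℝ → ℝ) (hc : ConcaveOn ℝ (Icc 0 1) R)
    (hcont : ContinuousOn R (Icc 0 1)) (hpos : ∀ t ∈ Icc (0:ℝ) 1, 0 ≤ R t)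
    (hne : ∃ t ∈ Icc (0:ℝ) 1, 0 < R t)
    (hramp : 80 * (mM1 R) ^ 2 * (mS R) ^ 2 * (mA R * mM2 R - (mM1 R) ^ 2) ≤ 9 * (mA R) ^ 8)
    (T : Fin 4 → Fin 3 → ℝ) (hT : AffineIndependent ℝ T) :
    isotropicConstant (wedge R) ≤ isotropicConstant (convexHull ℝ (Set.range T)) := by
  refine Two.two_flip0_isotropic_le_slices (wedge R) (wedge_isCompact hcont) (wedge_convex hc)
    (wedge_interior hc hcont hpos hne) wedge_flip1 wedge_flip2 ?_ T hT
  rw [wedge_int_abs0 hpos, wedge_int_abs1 hpos, wedge_int_vol hpos, wedge_int_t2_vol hpos,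
    wedge_int_t_vol hpos]
  have e1 : 20480 * ((2 * mM1 R) ^ 2 * (2 * mS R) ^ 2 *
      (4 * mA R * (4 * mM2 R) - (4 * mM1 R) ^ 2))
      = 65536 * (80 * (mM1 R) ^ 2 * (mS R) ^ 2 * (mA R * mM2 R - (mM1 R) ^ 2)) := by ring
  have e2 : 9 * (4 * mA R) ^ 8 = 65536 * (9 * (mA R) ^ 8) := by ring
  rw [e1, e2]
  exact mul_le_mul_of_nonneg_left hramp (by norm_num)

end Vale.Agent.Lib.P254.Ramp
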