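import Vale.Agent.Lib.P254.Ramp.Rect
import Vale.Agent.Lib.P254.Two.Reduce0

/-!
P254, wedge class with two profiles: the body and its slices

For two continuous concave profiles `P, R ≥ 0` on `[0,1]` the body

`wedgeP P R = {x ∈ ℝ³ | 0 ≤ x₀ ≤ 1, |x₁| ≤ P x₀, |x₂| ≤ R x₀}`

is compact and convex, invariant under the sign changes of the last two coordinates, and its
slices `x₀ = t` are the rectangles `[-P t, P t] × [-R t, R t]`.  The moment inequality of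
`Two/Reduce0.lean` becomes a one-dimensional inequality between five integrals over `[0,1]`.
The case `P t = t` is the wedge of `Ramp/Body.lean`.
-/

open MeasureTheory Set

namespace Vale.Agent.Lib.P254.Ramp

open Vale.Agent.Lib.P254

/-- The body with the two profiles `P` and `R`. -/
def wedgeP (P R : ℝ → ℝ) : Set (Fin 3 → ℝ) :=
  {x | 0 ≤ x 0 ∧ x 0 ≤ 1 ∧ |x 1| ≤ P (x 0) ∧ |x 2| ≤ R (x 0)}

theorem wedgeP_convex {P R : ℝ → ℝ} (hP : ConcaveOn ℝ (Icc 0 1) P)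
    (hR : ConcaveOn ℝ (Icc 0 1) R) : Convex ℝ (wedgeP P R) := by
  intro x hx y hy a b ha hb hab
  obtain ⟨hx0, hx1, hx2, hx3⟩ := hx
  obtain ⟨hy0, hy1, hy2, hy3⟩ := hy
  have e0 : (a • x + b • y) 0 = a * x 0 + b * y 0 := by simp
  have e1 : (a • x + b • y) 1 = a * x 1 + b * y 1 := by simp
  have e2 : (a • x + b • y) 2 = a * x 2 + b * y 2 := by simp
  have hPP := hP.2 ⟨hx0, hx1⟩ ⟨hy0, hy1⟩ ha hb hab
  have hRR := hR.2 ⟨hx0, hx1⟩ ⟨hy0, hy1⟩ ha hb hab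
  simp only [smul_eq_mul] at hPP hRR
  refine ⟨?_, ?_, ?_, ?_⟩
  · rw [e0]
    positivity
  · rw [e0]
    calc a * x 0 + b * y 0 ≤ a * 1 + b * 1 :=
          add_le_add (mul_le_mul_of_nonneg_left hx1 ha) (mul_le_mul_of_nonneg_left hy1 hb)
      _ = 1 := by rw [mul_one, mul_one, hab]
  · rw [e0, e1]
    calc |a * x 1 + b * y 1| ≤ |a * x 1| + |b * y 1| := abs_add_le _ _
      _ = a * |x 1| + b * |y 1| := by rw [abs_mul, abs_mul, abs_of_nonneg ha, abs_of_nonneg hb]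
      _ ≤ a * P (x 0) + b * P (y 0) :=
          add_le_add (mul_le_mul_of_nonneg_left hx2 ha) (mul_le_mul_of_nonneg_left hy2 hb)
      _ ≤ P (a * x 0 + b * y 0) := hPP
  · rw [e0, e2]
    calc |a * x 2 + b * y 2| ≤ |a * x 2| + |b * y 2| := abs_add_le _ _
      _ = a * |x 2| + b * |y 2| := by rw [abs_mul, abs_mul, abs_of_nonneg ha, abs_of_nonneg hb]
      _ ≤ a * R (x 0) + b * R (y 0) :=
          add_le_add (mul_le_mul_of_nonneg_left hx3 ha) (mul_le_mul_of_nonneg_left hy3 hb)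
      _ ≤ R (a * x 0 + b * y 0) := hRR

theorem wedgeP_flip1 {P R : ℝ → ℝ} :
    ∀ x ∈ wedgeP P R, Function.update x 1 (-(x 1)) ∈ wedgeP P R := by
  intro x hx
  obtain ⟨hx0, hx1, hx2, hx3⟩ := hx
  have e0 : Function.update x 1 (-(x 1)) 0 = x 0 := Function.update_of_ne (by decide) _ _
  have e1 : Function.update x 1 (-(x 1)) 1 = -(x 1) := Function.update_self _ _ _
  have e2 : Function.update x 1 (-(x 1)) 2 = x 2 := Function.update_of_ne (by decide) _ _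
  refine ⟨?_, ?_, ?_, ?_⟩
  · rw [e0]
    exact hx0
  · rw [e0]
    exact hx1
  · rw [e0, e1, abs_neg]
    exact hx2
  · rw [e0, e2]
    exact hx3

theorem wedgeP_flip2 {P R : ℝ → ℝ} :
    ∀ x ∈ wedgeP P R, Function.update x 2 (-(x 2)) ∈ wedgeP P R := by
  intro x hx
  obtain ⟨hx0, hx1, hx2, hx3⟩ := hx
  have e0 : Function.update x 2 (-(x 2)) 0 = x 0 := Function.update_of_ne (by decide) _ _
  have e1 : Function.update x 2 (-(x 2)) 1 = x 1 := Function.update_of_ne (by decide) _ _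
  have e2 : Function.update x 2 (-(x 2)) 2 = -(x 2) := Function.update_self _ _ _
  refine ⟨?_, ?_, ?_, ?_⟩
  · rw [e0]
    exact hx0
  · rw [e0]
    exact hx1
  · rw [e0, e1]
    exact hx2
  · rw [e0, e2, abs_neg]
    exact hx3

/-- The clamp of a real number to `[0,1]`. -/
noncomputable def clampP (t : ℝ) : ℝ := max 0 (min 1 t)

theorem clampP_mem (t : ℝ) : clampP t ∈ Icc (0:ℝ) 1 :=
  ⟨le_max_left _ _, max_le zero_le_one (min_le_left _ _)⟩

theorem clampP_eq {t : ℝ} (h0 : 0 ≤ t) (h1 : t ≤ 1) : clampP t = t := by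
  unfold clampP
  rw [min_eq_right h1, max_eq_right h0]

theorem continuous_clampP : Continuous clampP :=
  continuous_const.max (continuous_const.min continuous_id)

theorem wedgeP_isClosed {P R : ℝ → ℝ} (hPc : ContinuousOn P (Icc 0 1))
    (hRc : ContinuousOn R (Icc 0 1)) : IsClosed (wedgeP P R) := by
  have hPk : Continuous fun t : ℝ => P (clampP t) :=
    hPc.comp_continuous continuous_clampP clampP_mem
  have hRk : Continuous fun t : ℝ => R (clampP t) :=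
    hRc.comp_continuous continuous_clampP clampP_mem
  have heq : wedgeP P R = {x : Fin 3 → ℝ | 0 ≤ x 0} ∩ {x | x 0 ≤ 1}
      ∩ {x | |x 1| ≤ P (clampP (x 0))} ∩ {x | |x 2| ≤ R (clampP (x 0))} := by
    ext x
    constructor
    · rintro ⟨h0, h1, h2, h3⟩
      refine ⟨⟨⟨h0, h1⟩, ?_⟩, ?_⟩
      · show |x 1| ≤ P (clampP (x 0))
        rw [clampP_eq h0 h1]
        exact h2
      · show |x 2| ≤ R (clampP (x 0))
        rw [clampP_eq h0 h1]
        exact h3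
    · rintro ⟨⟨⟨h0, h1⟩, h2⟩, h3⟩
      have h0' : 0 ≤ x 0 := h0
      have h1' : x 0 ≤ 1 := h1
      have h2' : |x 1| ≤ P (clampP (x 0)) := h2
      have h3' : |x 2| ≤ R (clampP (x 0)) := h3
      rw [clampP_eq h0' h1'] at h2' h3'
      exact ⟨h0', h1', h2', h3'⟩
  rw [heq]
  have c0 : Continuous fun x : Fin 3 → ℝ => x 0 := continuous_apply 0
  have c1 : Continuous fun x : Fin 3 → ℝ => x 1 := continuous_apply 1
  have c2 : Continuous fun x : Fin 3 → ℝ => x 2 := continuous_apply 2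
  exact (((isClosed_le continuous_const c0).inter (isClosed_le c0 continuous_const)).inter
    (isClosed_le c1.abs (hPk.comp c0))).inter (isClosed_le c2.abs (hRk.comp c0))

theorem wedgeP_isCompact {P R : ℝ → ℝ} (hPc : ContinuousOn P (Icc 0 1))
    (hRc : ContinuousOn R (Icc 0 1)) : IsCompact (wedgeP P R) := by
  obtain ⟨MP, hMP⟩ := (isCompact_Icc.bddAbove_image hPc : BddAbove (P '' Icc (0:ℝ) 1))
  obtain ⟨MR, hMR⟩ := (isCompact_Icc.bddAbove_image hRc : BddAbove (R '' Icc (0:ℝ) 1))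
  refine Metric.isCompact_of_isClosed_isBounded (wedgeP_isClosed hPc hRc) ?_
  refine (Metric.isBounded_closedBall (x := (0 : Fin 3 → ℝ)) (r := max 1 (max MP MR))).subset ?_
  intro x hx
  obtain ⟨hx0, hx1, hx2, hx3⟩ := hx
  rw [mem_closedBall_zero_iff, pi_norm_le_iff_of_nonneg (le_trans zero_le_one (le_max_left _ _))]
  intro i
  rw [Real.norm_eq_abs]
  have hPM : P (x 0) ≤ MP := hMP (mem_image_of_mem P ⟨hx0, hx1⟩)
  have hRM : R (x 0) ≤ MR := hMR (mem_image_of_mem R ⟨hx0, hx1⟩)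
  fin_cases i
  · show |x 0| ≤ max 1 (max MP MR)
    rw [abs_of_nonneg hx0]
    exact le_trans hx1 (le_max_left _ _)
  · show |x 1| ≤ max 1 (max MP MR)
    exact le_trans (le_trans hx2 hPM) (le_trans (le_max_left _ _) (le_max_right _ _))
  · show |x 2| ≤ max 1 (max MP MR)
    exact le_trans (le_trans hx3 hRM) (le_trans (le_max_right _ _) (le_max_right _ _))

/-- A concave nonnegative function on `[0,1]` which is positive somewhere is positive at the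
midpoint. -/
theorem concave_pos_half {P : ℝ → ℝ} (hP : ConcaveOn ℝ (Icc 0 1) P)
    (hP0 : ∀ t ∈ Icc (0:ℝ) 1, 0 ≤ P t) (hPne : ∃ t ∈ Icc (0:ℝ) 1, 0 < P t) :
    0 < P (1 / 2) := by
  obtain ⟨t0, ht0, hPt0⟩ := hPne
  have ht1 : (1 - t0) ∈ Icc (0:ℝ) 1 := ⟨by linarith [ht0.2], by linarith [ht0.1]⟩
  have hmid := hP.2 ht0 ht1 (show (0:ℝ) ≤ 1 / 2 by norm_num) (show (0:ℝ) ≤ 1 / 2 by norm_num)
    (by norm_num)
  simp only [smul_eq_mul] at hmid
  have he : (1 / 2 : ℝ) * t0 + 1 / 2 * (1 - t0) = 1 / 2 := by ring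
  rw [he] at hmid
  have h1 := hP0 _ ht1
  linarith

theorem wedgeP_interior {P R : ℝ → ℝ} (hP : ConcaveOn ℝ (Icc 0 1) P)
    (hR : ConcaveOn ℝ (Icc 0 1) R) (hPc : ContinuousOn P (Icc 0 1))
    (hRc : ContinuousOn R (Icc 0 1)) (hP0 : ∀ t ∈ Icc (0:ℝ) 1, 0 ≤ P t)
    (hR0 : ∀ t ∈ Icc (0:ℝ) 1, 0 ≤ R t) (hPne : ∃ t ∈ Icc (0:ℝ) 1, 0 < P t)
    (hRne : ∃ t ∈ Icc (0:ℝ) 1, 0 < R t) : (interior (wedgeP P R)).Nonempty := by
  have hPh : 0 < P (1 / 2) := concave_pos_half hP hP0 hPne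
  have hRh : 0 < R (1 / 2) := concave_pos_half hR hR0 hRne
  have hnh : Icc (0:ℝ) 1 ∈ nhds (1 / 2 : ℝ) := Icc_mem_nhds (by norm_num) (by norm_num)
  have hPat : ContinuousAt P (1 / 2) := hPc.continuousAt hnh
  have hRat : ContinuousAt R (1 / 2) := hRc.continuousAt hnh
  obtain ⟨d1, hd1, hd1P⟩ := Metric.continuousAt_iff.mp hPat (P (1 / 2) / 2) (by linarith)
  obtain ⟨d2, hd2, hd2R⟩ := Metric.continuousAt_iff.mp hRat (R (1 / 2) / 2) (by linarith)
  set d : ℝ := min (min d1 d2) (1 / 4) with hd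
  have hdpos : 0 < d := lt_min (lt_min hd1 hd2) (by norm_num)
  have hdd1 : d ≤ d1 := le_trans (min_le_left _ _) (min_le_left _ _)
  have hdd2 : d ≤ d2 := le_trans (min_le_left _ _) (min_le_right _ _)
  have hd4 : d ≤ 1 / 4 := min_le_right _ _
  set U : Set (Fin 3 → ℝ) := {x | x 0 ∈ Ioo (1 / 2 - d) (1 / 2 + d)}
    ∩ {x | x 1 ∈ Ioo (-(P (1 / 2) / 2)) (P (1 / 2) / 2)}
    ∩ {x | x 2 ∈ Ioo (-(R (1 / 2) / 2)) (R (1 / 2) / 2)} with hU
  have hUo : IsOpen U :=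
    ((isOpen_Ioo.preimage (continuous_apply 0)).inter
      (isOpen_Ioo.preimage (continuous_apply 1))).inter
      (isOpen_Ioo.preimage (continuous_apply 2))
  have hUK : U ⊆ wedgeP P R := by
    rintro x ⟨⟨h0, h1⟩, h2⟩
    have h0' : x 0 ∈ Ioo (1 / 2 - d) (1 / 2 + d) := h0
    have h1' : x 1 ∈ Ioo (-(P (1 / 2) / 2)) (P (1 / 2) / 2) := h1
    have h2' : x 2 ∈ Ioo (-(R (1 / 2) / 2)) (R (1 / 2) / 2) := h2
    have hdist1 : dist (x 0) (1 / 2) < d1 := by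
      rw [Real.dist_eq, abs_lt]
      constructor
      · linarith [h0'.1]
      · linarith [h0'.2]
    have hdist2 : dist (x 0) (1 / 2) < d2 := by
      rw [Real.dist_eq, abs_lt]
      constructor
      · linarith [h0'.1]
      · linarith [h0'.2]
    have hPx := hd1P hdist1
    have hRx := hd2R hdist2
    rw [Real.dist_eq, abs_lt] at hPx hRx
    refine ⟨by linarith [h0'.1], by linarith [h0'.2], ?_, ?_⟩
    · rw [abs_le]
      constructor
      · linarith [h1'.1, hPx.1]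
      · linarith [h1'.2, hPx.1]
    · rw [abs_le]
      constructor
      · linarith [h2'.1, hRx.1]
      · linarith [h2'.2, hRx.1]
  refine ⟨![1 / 2, 0, 0], interior_maximal hUK hUo ?_⟩
  refine ⟨⟨?_, ?_⟩, ?_⟩
  · show (![1 / 2, 0, 0] : Fin 3 → ℝ) 0 ∈ Ioo (1 / 2 - d) (1 / 2 + d)
    simp only [Matrix.cons_val_zero]
    exact ⟨by linarith, by linarith⟩
  · show (![1 / 2, 0, 0] : Fin 3 → ℝ) 1 ∈ Ioo (-(P (1 / 2) / 2)) (P (1 / 2) / 2)
    simp only [Matrix.cons_val_one, Matrix.cons_val_zero]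
    exact ⟨by linarith, by linarith⟩
  · show (![1 / 2, 0, 0] : Fin 3 → ℝ) 2 ∈ Ioo (-(R (1 / 2) / 2)) (R (1 / 2) / 2)
    simp only [Matrix.cons_val_two, Matrix.tail_cons, Matrix.head_cons]
    exact ⟨by linarith, by linarith⟩

/-- The slices of the body. -/
theorem sec_wedgeP_of_mem (P R : ℝ → ℝ) {t : ℝ} (ht : t ∈ Icc (0:ℝ) 1) :
    sec (wedgeP P R) t = rect (P t) (R t) := by
  ext y
  constructor
  · intro h
    have h' : (Fin.cons t y : Fin 3 → ℝ) ∈ wedgeP P R := h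
    exact ⟨h'.2.2.1, h'.2.2.2⟩
  · rintro ⟨h1, h2⟩
    show (Fin.cons t y : Fin 3 → ℝ) ∈ wedgeP P R
    exact ⟨ht.1, ht.2, h1, h2⟩

theorem sec_wedgeP_of_not_mem (P R : ℝ → ℝ) {t : ℝ} (ht : t ∉ Icc (0:ℝ) 1) :
    sec (wedgeP P R) t = ∅ := by
  ext y
  constructor
  · intro h
    have h' : (Fin.cons t y : Fin 3 → ℝ) ∈ wedgeP P R := h
    exact ht ⟨h'.1, h'.2.1⟩
  · intro h
    exact False.elim h

/-- An integral over the line of a function vanishing outside `[0,1]`. -/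
theorem int_line_eqP (F f : ℝ → ℝ) (h1 : ∀ t ∈ Icc (0:ℝ) 1, F t = f t)
    (h0 : ∀ t, t ∉ Icc (0:ℝ) 1 → F t = 0) : ∫ t, F t = ∫ t in (0:ℝ)..1, f t := by
  have hF : F = (Icc (0:ℝ) 1).indicator f := by
    funext t
    by_cases ht : t ∈ Icc (0:ℝ) 1
    · rw [indicator_of_mem ht, h1 t ht]
    · rw [indicator_of_notMem ht, h0 t ht]
  rw [hF, integral_indicator measurableSet_Icc, integral_Icc_eq_integral_Ioc,
    ← intervalIntegral.integral_of_le zero_le_one]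

section slices

variable {P R : ℝ → ℝ} (hP0 : ∀ t ∈ Icc (0:ℝ) 1, 0 ≤ P t) (hR0 : ∀ t ∈ Icc (0:ℝ) 1, 0 ≤ R t)

include hP0 hR0

theorem wedgeP_int_vol :
    ∫ t, vol (sec (wedgeP P R) t) = 4 * ∫ t in (0:ℝ)..1, P t * R t := by
  rw [← intervalIntegral.integral_const_mul]
  refine int_line_eqP _ _ (fun t ht => ?_) (fun t ht => ?_)
  · rw [sec_wedgeP_of_mem P R ht, vol_rect (hP0 t ht) (hR0 t ht)]
    ring
  · rw [sec_wedgeP_of_not_mem P R ht]
    simp [vol]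

theorem wedgeP_int_t_vol :
    ∫ t, t * vol (sec (wedgeP P R) t) = 4 * ∫ t in (0:ℝ)..1, t * (P t * R t) := by
  rw [← intervalIntegral.integral_const_mul]
  refine int_line_eqP _ _ (fun t ht => ?_) (fun t ht => ?_)
  · rw [sec_wedgeP_of_mem P R ht, vol_rect (hP0 t ht) (hR0 t ht)]
    ring
  · rw [sec_wedgeP_of_not_mem P R ht]
    simp [vol]

theorem wedgeP_int_t2_vol :
    ∫ t, t ^ 2 * vol (sec (wedgeP P R) t) = 4 * ∫ t in (0:ℝ)..1, t ^ 2 * (P t * R t) := by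
  rw [← intervalIntegral.integral_const_mul]
  refine int_line_eqP _ _ (fun t ht => ?_) (fun t ht => ?_)
  · rw [sec_wedgeP_of_mem P R ht, vol_rect (hP0 t ht) (hR0 t ht)]
    ring
  · rw [sec_wedgeP_of_not_mem P R ht]
    simp [vol]

theorem wedgeP_int_abs0 :
    ∫ t, ∫ y in sec (wedgeP P R) t, |y 0| = 2 * ∫ t in (0:ℝ)..1, (P t) ^ 2 * R t := by
  rw [← intervalIntegral.integral_const_mul]
  refine int_line_eqP _ _ (fun t ht => ?_) (fun t ht => ?_)
  · rw [sec_wedgeP_of_mem P R ht, int_abs0_rect (hP0 t ht) (hR0 t ht)]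
    ring
  · rw [sec_wedgeP_of_not_mem P R ht]
    simp

theorem wedgeP_int_abs1 :
    ∫ t, ∫ y in sec (wedgeP P R) t, |y 1| = 2 * ∫ t in (0:ℝ)..1, P t * (R t) ^ 2 := by
  rw [← intervalIntegral.integral_const_mul]
  refine int_line_eqP _ _ (fun t ht => ?_) (fun t ht => ?_)
  · rw [sec_wedgeP_of_mem P R ht, int_abs1_rect (hP0 t ht) (hR0 t ht)]
    ring
  · rw [sec_wedgeP_of_not_mem P R ht]
    simp

end slices

/-- **The two-profile wedge class.** If the profiles `P`, `R` are continuous, concave and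
nonnegative on `[0,1]`, neither identically zero, and satisfy the one-dimensional inequality
`80 N² S² (A M₂ - M₁²) ≤ 9 A⁸` for `A = ∫ P R`, `M₁ = ∫ t P R`, `M₂ = ∫ t² P R`,
`N = ∫ P² R`, `S = ∫ P R²`, then the body `wedgeP P R` has isotropic constant at most that
of the tetrahedra. -/
theorem wedgeP_isotropic_le_of_ineq (P R : ℝ → ℝ) (hP : ConcaveOn ℝ (Icc 0 1) P)
    (hR : ConcaveOn ℝ (Icc 0 1) R) (hPc : ContinuousOn P (Icc 0 1))
    (hRc : ContinuousOn R (Icc 0 1)) (hP0 : ∀ t ∈ Icc (0:ℝ) 1, 0 ≤ P t)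
    (hR0 : ∀ t ∈ Icc (0:ℝ) 1, 0 ≤ R t) (hPne : ∃ t ∈ Icc (0:ℝ) 1, 0 < P t)
    (hRne : ∃ t ∈ Icc (0:ℝ) 1, 0 < R t)
    (h1d : 80 * (∫ t in (0:ℝ)..1, (P t) ^ 2 * R t) ^ 2 * (∫ t in (0:ℝ)..1, P t * (R t) ^ 2) ^ 2 *
      ((∫ t in (0:ℝ)..1, P t * R t) * (∫ t in (0:ℝ)..1, t ^ 2 * (P t * R t))
        - (∫ t in (0:ℝ)..1, t * (P t * R t)) ^ 2)
      ≤ 9 * (∫ t in (0:ℝ)..1, P t * R t) ^ 8)
    (T : Fin 4 → Fin 3 → ℝ) (hT : AffineIndependent ℝ T) :
    isotropicConstant (wedgeP P R) ≤ isotropicConstant (convexHull ℝ (Set.range T)) := by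
  refine Two.two_flip0_isotropic_le_slices (wedgeP P R) (wedgeP_isCompact hPc hRc)
    (wedgeP_convex hP hR) (wedgeP_interior hP hR hPc hRc hP0 hR0 hPne hRne)
    wedgeP_flip1 wedgeP_flip2 ?_ T hT
  rw [wedgeP_int_abs0 hP0 hR0, wedgeP_int_abs1 hP0 hR0, wedgeP_int_vol hP0 hR0,
    wedgeP_int_t2_vol hP0 hR0, wedgeP_int_t_vol hP0 hR0]
  set A : ℝ := ∫ t in (0:ℝ)..1, P t * R t with hA
  set M1 : ℝ := ∫ t in (0:ℝ)..1, t * (P t * R t) with hM1
  set M2 : ℝ := ∫ t in (0:ℝ)..1, t ^ 2 * (P t * R t) with hM2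
  set N : ℝ := ∫ t in (0:ℝ)..1, (P t) ^ 2 * R t with hN
  set S : ℝ := ∫ t in (0:ℝ)..1, P t * (R t) ^ 2 with hS
  have e1 : 20480 * ((2 * N) ^ 2 * (2 * S) ^ 2 * (4 * A * (4 * M2) - (4 * M1) ^ 2))
      = 65536 * (80 * N ^ 2 * S ^ 2 * (A * M2 - M1 ^ 2)) := by ring
  have e2 : 9 * (4 * A) ^ 8 = 65536 * (9 * A ^ 8) := by ring
  rw [e1, e2]
  exact mul_le_mul_of_nonneg_left h1d (by norm_num)

end Vale.Agent.Lib.P254.Ramp
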