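import Vale.Agent.Lib.P254.Ramp.Smooth
import Vale.Agent.Lib.P254.Two.Reduce0

/-!
# P254, wedge class: from the one-dimensional inequality to the slice hypothesis

For a body `K ⊆ ℝ³` whose sections `sec K t` (height = first coordinate) are empty outside
`[0,1]` and have area `4 t R(t)` and first absolute moments `2 t² R(t)`, `2 t R(t)²` for
`t ∈ [0,1]`, the slice hypothesis of `Two.two_flip0_isotropic_le_slices` is the one-dimensional
inequality `Ramp.ramp_ineq_concave` for the concave profile `R`.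
-/

namespace Vale.Agent.Lib.P254.Ramp

open MeasureTheory Set
open Vale.Agent.Lib.P254

/-- A function that vanishes outside `[0,1]` and agrees with `g` on `[0,1]`: its integral over
the line is the interval integral of `g` over `[0,1]`. -/
theorem integral_eq_interval_of_zero_outside (f g : ℝ → ℝ)
    (hin : ∀ t ∈ Icc (0:ℝ) 1, f t = g t) (hout : ∀ t, t ∉ Icc (0:ℝ) 1 → f t = 0) :
    (∫ t, f t) = ∫ t in (0:ℝ)..1, g t := by
  have h1 : (∫ t, f t) = ∫ t in Icc (0:ℝ) 1, f t :=
    (setIntegral_eq_integral_of_forall_compl_eq_zero (fun t ht => hout t ht)).symm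
  rw [h1, intervalIntegral.integral_of_le zero_le_one, ← integral_Icc_eq_integral_Ioc]
  exact setIntegral_congr_fun measurableSet_Icc (fun t ht => hin t ht)

section Slices

variable (K : Set (Fin 3 → ℝ)) (R : ℝ → ℝ)

/-- The volume of `K` as an integral of the areas of the sections: `4 ∫ t R`. -/
theorem slice_vol (hv : ∀ t ∈ Icc (0:ℝ) 1, vol (sec K t) = 4 * t * R t)
    (hout : ∀ t, t ∉ Icc (0:ℝ) 1 → sec K t = ∅) :
    (∫ t, vol (sec K t)) = 4 * mA R := by
  rw [integral_eq_interval_of_zero_outside (fun t => vol (sec K t)) (fun t => 4 * (t * R t))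
    (fun t ht => by rw [hv t ht]; ring)
    (fun t ht => by simp [hout t ht, vol])]
  rw [intervalIntegral.integral_const_mul]
  rfl

/-- `∫ t · area = 4 ∫ t² R`. -/
theorem slice_mom1 (hv : ∀ t ∈ Icc (0:ℝ) 1, vol (sec K t) = 4 * t * R t)
    (hout : ∀ t, t ∉ Icc (0:ℝ) 1 → sec K t = ∅) :
    (∫ t, t * vol (sec K t)) = 4 * mM1 R := by
  rw [integral_eq_interval_of_zero_outside (fun t => t * vol (sec K t))
    (fun t => 4 * (t ^ 2 * R t))
    (fun t ht => by rw [hv t ht]; ring)
    (fun t ht => by simp [hout t ht, vol])]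
  rw [intervalIntegral.integral_const_mul]
  rfl

/-- `∫ t² · area = 4 ∫ t³ R`. -/
theorem slice_mom2 (hv : ∀ t ∈ Icc (0:ℝ) 1, vol (sec K t) = 4 * t * R t)
    (hout : ∀ t, t ∉ Icc (0:ℝ) 1 → sec K t = ∅) :
    (∫ t, t ^ 2 * vol (sec K t)) = 4 * mM2 R := by
  rw [integral_eq_interval_of_zero_outside (fun t => t ^ 2 * vol (sec K t))
    (fun t => 4 * (t ^ 3 * R t))
    (fun t ht => by rw [hv t ht]; ring)
    (fun t ht => by simp [hout t ht, vol])]
  rw [intervalIntegral.integral_const_mul]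
  rfl

/-- The first absolute moment of the first coordinate of the sections: `2 ∫ t² R`. -/
theorem slice_abs0 (ha : ∀ t ∈ Icc (0:ℝ) 1, (∫ y in sec K t, |y 0|) = 2 * t ^ 2 * R t)
    (hout : ∀ t, t ∉ Icc (0:ℝ) 1 → sec K t = ∅) :
    (∫ t, ∫ y in sec K t, |y 0|) = 2 * mM1 R := by
  rw [integral_eq_interval_of_zero_outside (fun t => ∫ y in sec K t, |y 0|)
    (fun t => 2 * (t ^ 2 * R t))
    (fun t ht => by rw [ha t ht]; ring)
    (fun t ht => by simp [hout t ht])]
  rw [intervalIntegral.integral_const_mul]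
  rfl

/-- The first absolute moment of the second coordinate of the sections: `2 ∫ t R²`. -/
theorem slice_abs1 (hb : ∀ t ∈ Icc (0:ℝ) 1, (∫ y in sec K t, |y 1|) = 2 * t * (R t) ^ 2)
    (hout : ∀ t, t ∉ Icc (0:ℝ) 1 → sec K t = ∅) :
    (∫ t, ∫ y in sec K t, |y 1|) = 2 * mS R := by
  rw [integral_eq_interval_of_zero_outside (fun t => ∫ y in sec K t, |y 1|)
    (fun t => 2 * (t * (R t) ^ 2))
    (fun t ht => by rw [hb t ht]; ring)
    (fun t ht => by simp [hout t ht])]
  rw [intervalIntegral.integral_const_mul]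
  rfl

/-- **The slice hypothesis of `Two.two_flip0_isotropic_le_slices` for the wedge class.**
If the sections of `K` are empty outside `[0,1]` and, for `t ∈ [0,1]`, have area `4 t R(t)` and
first absolute moments `2 t² R(t)` and `2 t R(t)²`, with `R` concave and nonnegative on
`[0,1]`, then the slice inequality holds. -/
theorem slices_bridge
    (hv : ∀ t ∈ Icc (0:ℝ) 1, vol (sec K t) = 4 * t * R t)
    (ha : ∀ t ∈ Icc (0:ℝ) 1, (∫ y in sec K t, |y 0|) = 2 * t ^ 2 * R t)
    (hb : ∀ t ∈ Icc (0:ℝ) 1, (∫ y in sec K t, |y 1|) = 2 * t * (R t) ^ 2)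
    (hout : ∀ t, t ∉ Icc (0:ℝ) 1 → sec K t = ∅)
    (hc : ConcaveOn ℝ (Icc (0:ℝ) 1) R) (hpos : ∀ z ∈ Icc (0:ℝ) 1, 0 ≤ R z) :
    20480 * ((∫ t, ∫ y in sec K t, |y 0|) ^ 2 * (∫ t, ∫ y in sec K t, |y 1|) ^ 2 *
      ((∫ t, vol (sec K t)) * (∫ t, t ^ 2 * vol (sec K t)) - (∫ t, t * vol (sec K t)) ^ 2))
      ≤ 9 * (∫ t, vol (sec K t)) ^ 8 := by
  rw [slice_abs0 K R ha hout, slice_abs1 K R hb hout, slice_vol K R hv hout,
    slice_mom2 K R hv hout, slice_mom1 K R hv hout]
  have h := ramp_ineq_concave R hc hpos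
  nlinarith [h]

end Slices

end Vale.Agent.Lib.P254.Ramp
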