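import Vale.Agent.Lib.P254.Ramp.Main

/-!
# P254, wedge class: from twice differentiable profiles to all concave profiles

A concave `R ≥ 0` on `[0,1]` is replaced by the double average
`smooth R h z = (Φ₂(y+h) - 2Φ₂(y) + Φ₂(y-h)) / h²`, `y = (1-4h) z + 2h`, where `Φ₂` is the second
antiderivative of `R` clamped to `[h, 1-h]`.  It is twice differentiable with second derivative
`(1-4h)² (R(y+h) - 2R(y) + R(y-h)) / h² ≤ 0`, nonnegative, bounded by `2 R(1/2)`, and tends to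
`R` pointwise on `(0,1)` as `h → 0`.
-/

namespace Vale.Agent.Lib.P254.Ramp

open MeasureTheory intervalIntegral Set Filter Topology

/-- `R` clamped to `[h, 1-h]`. -/
noncomputable def clampR (R : ℝ → ℝ) (h x : ℝ) : ℝ := R (max h (min x (1 - h)))

/-- First antiderivative. -/
noncomputable def phi1 (f : ℝ → ℝ) (x : ℝ) : ℝ := ∫ t in (0:ℝ)..x, f t

/-- Second antiderivative. -/
noncomputable def phi2 (f : ℝ → ℝ) (x : ℝ) : ℝ := ∫ t in (0:ℝ)..x, phi1 f t

/-- The double average of `R`. -/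
noncomputable def smooth (R : ℝ → ℝ) (h z : ℝ) : ℝ :=
  (phi2 (clampR R h) ((1 - 4 * h) * z + 3 * h) - 2 * phi2 (clampR R h) ((1 - 4 * h) * z + 2 * h)
    + phi2 (clampR R h) ((1 - 4 * h) * z + h)) / h ^ 2

/-- Its first derivative. -/
noncomputable def smooth1 (R : ℝ → ℝ) (h z : ℝ) : ℝ :=
  (1 - 4 * h) * (phi1 (clampR R h) ((1 - 4 * h) * z + 3 * h)
    - 2 * phi1 (clampR R h) ((1 - 4 * h) * z + 2 * h)
    + phi1 (clampR R h) ((1 - 4 * h) * z + h)) / h ^ 2

/-- Its second derivative. -/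
noncomputable def smooth2 (R : ℝ → ℝ) (h z : ℝ) : ℝ :=
  (1 - 4 * h) ^ 2 * (clampR R h ((1 - 4 * h) * z + 3 * h)
    - 2 * clampR R h ((1 - 4 * h) * z + 2 * h)
    + clampR R h ((1 - 4 * h) * z + h)) / h ^ 2

/-! ### SMCONT: continuity of the clamped profile, and the bound `R ≤ 2 R(1/2)` -/

theorem smcont_clamp_mem (h : ℝ) (hh : 0 < h) (hh' : h < 1 / 2) (x : ℝ) :
    max h (min x (1 - h)) ∈ interior (Icc (0:ℝ) 1) := by
  rw [interior_Icc]
  constructor
  · exact lt_of_lt_of_le hh (le_max_left _ _)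
  · apply max_lt
    · linarith
    · exact lt_of_le_of_lt (min_le_right _ _) (by linarith)

theorem clampR_continuous (R : ℝ → ℝ) (hc : ConcaveOn ℝ (Icc (0:ℝ) 1) R) (h : ℝ)
    (hh : 0 < h) (hh' : h < 1 / 2) : Continuous (clampR R h) := by
  have hR : ContinuousOn R (interior (Icc (0:ℝ) 1)) := hc.continuousOn_interior
  have hg : Continuous fun x : ℝ => max h (min x (1 - h)) :=
    continuous_const.max (continuous_id.min continuous_const)
  exact hR.comp_continuous hg (smcont_clamp_mem h hh hh')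

theorem concave_bound (R : ℝ → ℝ) (hc : ConcaveOn ℝ (Icc (0:ℝ) 1) R)
    (hpos : ∀ z ∈ Icc (0:ℝ) 1, 0 ≤ R z) : ∀ z ∈ Icc (0:ℝ) 1, R z ≤ 2 * R (1 / 2) := by
  intro z hz
  have hz' : 1 - z ∈ Icc (0:ℝ) 1 := ⟨by linarith [hz.2], by linarith [hz.1]⟩
  have h1 := hc.2 hz hz' (by norm_num : (0:ℝ) ≤ 1 / 2) (by norm_num : (0:ℝ) ≤ 1 / 2)
    (by norm_num : (1 / 2 : ℝ) + 1 / 2 = 1)
  have h2 : (1 / 2 : ℝ) • z + (1 / 2 : ℝ) • (1 - z) = 1 / 2 := by
    simp only [smul_eq_mul]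
    ring
  rw [h2] at h1
  simp only [smul_eq_mul] at h1
  have h3 := hpos (1 - z) hz'
  linarith

/-! ### SMAVG -/

theorem smavg_phi1_cont (f : ℝ → ℝ) (hf : Continuous f) : Continuous (phi1 f) :=
  intervalIntegral.continuous_primitive (fun a b => hf.intervalIntegrable a b) 0

theorem smavg_phi1_diff (f : ℝ → ℝ) (hf : Continuous f) (x h : ℝ) :
    phi1 f (x + h) - phi1 f x = ∫ t in x..(x + h), f t := by
  unfold phi1
  exact intervalIntegral.integral_interval_sub_left (hf.intervalIntegrable _ _)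
    (hf.intervalIntegrable _ _)

theorem smavg_window (f : ℝ → ℝ) (hf : Continuous f) (x h m M : ℝ) (hh : 0 < h)
    (hm : ∀ t ∈ Icc x (x + h), m ≤ f t) (hM : ∀ t ∈ Icc x (x + h), f t ≤ M) :
    m * h ≤ ∫ t in x..(x + h), f t ∧ ∫ t in x..(x + h), f t ≤ M * h := by
  have hle : x ≤ x + h := by linarith
  constructor
  · have h1 := intervalIntegral.integral_mono_on (μ := volume) hle
      (intervalIntegrable_const (c := m)) (hf.intervalIntegrable x (x + h))
      (fun t ht => hm t ht)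
    rw [intervalIntegral.integral_const] at h1
    have e : (x + h - x) • m = m * h := by
      rw [smul_eq_mul]
      ring
    rw [e] at h1
    exact h1
  · have h1 := intervalIntegral.integral_mono_on (μ := volume) hle
      (hf.intervalIntegrable x (x + h)) (intervalIntegrable_const (c := M))
      (fun t ht => hM t ht)
    rw [intervalIntegral.integral_const] at h1
    have e : (x + h - x) • M = M * h := by
      rw [smul_eq_mul]
      ring
    rw [e] at h1
    exact h1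

theorem avg_bounds (f : ℝ → ℝ) (hf : Continuous f) (y h m M : ℝ) (hh : 0 < h)
    (hm : ∀ t ∈ Icc (y - h) (y + h), m ≤ f t) (hM : ∀ t ∈ Icc (y - h) (y + h), f t ≤ M) :
    m * h ^ 2 ≤ phi2 f (y + h) - 2 * phi2 f y + phi2 f (y - h) ∧
      phi2 f (y + h) - 2 * phi2 f y + phi2 f (y - h) ≤ M * h ^ 2 := by
  have hc1 : Continuous (phi1 f) := smavg_phi1_cont f hf
  have hi : ∀ a b, IntervalIntegrable (phi1 f) volume a b :=
    fun a b => hc1.intervalIntegrable a b
  have e1 : phi2 f (y + h) - phi2 f y = ∫ x in y..(y + h), phi1 f x := by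
    unfold phi2
    exact intervalIntegral.integral_interval_sub_left (hi _ _) (hi _ _)
  have e2 : phi2 f y - phi2 f (y - h) = ∫ x in (y - h)..y, phi1 f x := by
    unfold phi2
    exact intervalIntegral.integral_interval_sub_left (hi _ _) (hi _ _)
  have e3 : ∫ x in y..(y + h), phi1 f x = ∫ x in (y - h)..y, phi1 f (x + h) := by
    rw [intervalIntegral.integral_comp_add_right (fun x => phi1 f x) h, sub_add_cancel]
  have hc2 : Continuous (fun x => phi1 f (x + h)) :=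
    hc1.comp (continuous_id.add continuous_const)
  have e4 : phi2 f (y + h) - 2 * phi2 f y + phi2 f (y - h)
      = ∫ x in (y - h)..y, (phi1 f (x + h) - phi1 f x) := by
    rw [intervalIntegral.integral_sub (hc2.intervalIntegrable _ _) (hi _ _), ← e3, ← e1, ← e2]
    ring
  have hle : y - h ≤ y := by linarith
  have hwin : ∀ x ∈ Icc (y - h) y,
      m * h ≤ phi1 f (x + h) - phi1 f x ∧ phi1 f (x + h) - phi1 f x ≤ M * h := by
    intro x hx
    rw [smavg_phi1_diff f hf x h]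
    exact smavg_window f hf x h m M hh
      (fun t ht => hm t ⟨by linarith [hx.1, ht.1], by linarith [hx.2, ht.2]⟩)
      (fun t ht => hM t ⟨by linarith [hx.1, ht.1], by linarith [hx.2, ht.2]⟩)
  have hc3 : Continuous (fun x => phi1 f (x + h) - phi1 f x) := hc2.sub hc1
  rw [e4]
  constructor
  · have h1 := intervalIntegral.integral_mono_on (μ := volume) hle
      (intervalIntegrable_const (c := m * h)) (hc3.intervalIntegrable _ _)
      (fun x hx => (hwin x hx).1)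
    rw [intervalIntegral.integral_const] at h1
    have e : (y - (y - h)) • (m * h) = m * h ^ 2 := by
      rw [smul_eq_mul]
      ring
    rw [e] at h1
    exact h1
  · have h1 := intervalIntegral.integral_mono_on (μ := volume) hle
      (hc3.intervalIntegrable _ _) (intervalIntegrable_const (c := M * h))
      (fun x hx => (hwin x hx).2)
    rw [intervalIntegral.integral_const] at h1
    have e : (y - (y - h)) • (M * h) = M * h ^ 2 := by
      rw [smul_eq_mul]
      ring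
    rw [e] at h1
    exact h1

/-! ### SMDER: derivatives of the double average -/

theorem smder_phi1 (f : ℝ → ℝ) (hf : Continuous f) (x : ℝ) : HasDerivAt (phi1 f) (f x) x :=
  intervalIntegral.integral_hasDerivAt_right (hf.intervalIntegrable _ _)
    (hf.stronglyMeasurableAtFilter _ _) hf.continuousAt

theorem smder_phi1_continuous (f : ℝ → ℝ) (hf : Continuous f) : Continuous (phi1 f) :=
  continuous_iff_continuousAt.mpr (fun x => (smder_phi1 f hf x).continuousAt)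

theorem smder_phi2 (f : ℝ → ℝ) (hf : Continuous f) (x : ℝ) :
    HasDerivAt (phi2 f) (phi1 f x) x :=
  intervalIntegral.integral_hasDerivAt_right
    ((smder_phi1_continuous f hf).intervalIntegrable _ _)
    ((smder_phi1_continuous f hf).stronglyMeasurableAtFilter _ _)
    (smder_phi1_continuous f hf).continuousAt

theorem smder_comp (F F' : ℝ → ℝ) (hF : ∀ x, HasDerivAt F (F' x) x) (a k z : ℝ) :
    HasDerivAt (fun z => F (a * z + k)) (a * F' (a * z + k)) z := by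
  have h1 : HasDerivAt (fun z : ℝ => a * z + k) a z := by
    simpa using ((hasDerivAt_id z).const_mul a).add_const k
  have h2 := (hF (a * z + k)).comp z h1
  rw [mul_comm]
  exact h2

theorem smooth_deriv (R : ℝ → ℝ) (h : ℝ) (hcont : Continuous (clampR R h)) (hh : h ≠ 0) :
    (∀ x, HasDerivAt (smooth R h) (smooth1 R h x) x) ∧
    (∀ x, HasDerivAt (smooth1 R h) (smooth2 R h x) x) ∧
    Continuous (smooth2 R h) := by
  have _ := hh
  refine ⟨fun x => ?_, fun x => ?_, ?_⟩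
  · have d3 := smder_comp (phi2 (clampR R h)) (phi1 (clampR R h))
      (smder_phi2 (clampR R h) hcont) (1 - 4 * h) (3 * h) x
    have d2 := smder_comp (phi2 (clampR R h)) (phi1 (clampR R h))
      (smder_phi2 (clampR R h) hcont) (1 - 4 * h) (2 * h) x
    have d1 := smder_comp (phi2 (clampR R h)) (phi1 (clampR R h))
      (smder_phi2 (clampR R h) hcont) (1 - 4 * h) h x
    have key := ((d3.sub (d2.const_mul 2)).add d1).div_const (h ^ 2)
    have e : smooth R h = fun z => (phi2 (clampR R h) ((1 - 4 * h) * z + 3 * h)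
        - 2 * phi2 (clampR R h) ((1 - 4 * h) * z + 2 * h)
        + phi2 (clampR R h) ((1 - 4 * h) * z + h)) / h ^ 2 := by
      funext z
      rfl
    rw [e]
    refine key.congr_deriv ?_
    unfold smooth1
    ring
  · have d3 := smder_comp (phi1 (clampR R h)) (clampR R h)
      (smder_phi1 (clampR R h) hcont) (1 - 4 * h) (3 * h) x
    have d2 := smder_comp (phi1 (clampR R h)) (clampR R h)
      (smder_phi1 (clampR R h) hcont) (1 - 4 * h) (2 * h) x
    have d1 := smder_comp (phi1 (clampR R h)) (clampR R h)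
      (smder_phi1 (clampR R h) hcont) (1 - 4 * h) h x
    have key := (((d3.sub (d2.const_mul 2)).add d1).const_mul (1 - 4 * h)).div_const (h ^ 2)
    have e : smooth1 R h = fun z => (1 - 4 * h) * (phi1 (clampR R h) ((1 - 4 * h) * z + 3 * h)
        - 2 * phi1 (clampR R h) ((1 - 4 * h) * z + 2 * h)
        + phi1 (clampR R h) ((1 - 4 * h) * z + h)) / h ^ 2 := by
      funext z
      rfl
    rw [e]
    refine key.congr_deriv ?_
    unfold smooth2
    ring
  · have c3 : Continuous (fun z : ℝ => (1 - 4 * h) * z + 3 * h) := by fun_prop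
    have c2 : Continuous (fun z : ℝ => (1 - 4 * h) * z + 2 * h) := by fun_prop
    have c1 : Continuous (fun z : ℝ => (1 - 4 * h) * z + h) := by fun_prop
    have e : smooth2 R h = fun z => (1 - 4 * h) ^ 2 * (clampR R h ((1 - 4 * h) * z + 3 * h)
        - 2 * clampR R h ((1 - 4 * h) * z + 2 * h)
        + clampR R h ((1 - 4 * h) * z + h)) / h ^ 2 := by
      funext z
      rfl
    rw [e]
    exact (continuous_const.mul (((hcont.comp c3).sub
      (continuous_const.mul (hcont.comp c2))).add (hcont.comp c1))).div_const _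

/-! ### SMSIGN: signs and bounds of the double average -/

theorem smsign_clamp (R : ℝ → ℝ) (h t : ℝ) (h1 : h ≤ t) (h2 : t ≤ 1 - h) :
    clampR R h t = R t := by
  unfold clampR
  rw [min_eq_left h2, max_eq_right h1]

theorem smsign_window (h z : ℝ) (hh' : h < 1 / 8) (hz : z ∈ Icc (0:ℝ) 1) :
    2 * h ≤ (1 - 4 * h) * z + 2 * h ∧ (1 - 4 * h) * z + 2 * h ≤ 1 - 2 * h := by
  obtain ⟨hz0, hz1⟩ := hz
  have h4 : 0 ≤ 1 - 4 * h := by linarith
  have e1 : 0 ≤ (1 - 4 * h) * z := mul_nonneg h4 hz0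
  have e2 : 0 ≤ (1 - 4 * h) * (1 - z) := mul_nonneg h4 (sub_nonneg.mpr hz1)
  constructor
  · linarith
  · linarith

theorem smooth_signs (R : ℝ → ℝ) (hc : ConcaveOn ℝ (Icc (0:ℝ) 1) R)
    (hpos : ∀ z ∈ Icc (0:ℝ) 1, 0 ≤ R z) (h : ℝ) (hh : 0 < h) (hh' : h < 1 / 8) :
    (∀ z ∈ Icc (0:ℝ) 1, 0 ≤ smooth R h z) ∧
    (∀ z ∈ Icc (0:ℝ) 1, smooth R h z ≤ 2 * R (1 / 2)) ∧
    (∀ z ∈ Icc (0:ℝ) 1, smooth2 R h z ≤ 0) := by
  have hcont := clampR_continuous R hc h hh (by linarith)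
  have hb := concave_bound R hc hpos
  have hh2 : 0 < h ^ 2 := by positivity
  have key : ∀ z ∈ Icc (0:ℝ) 1,
      0 * h ^ 2 ≤ phi2 (clampR R h) ((1 - 4 * h) * z + 3 * h)
          - 2 * phi2 (clampR R h) ((1 - 4 * h) * z + 2 * h)
          + phi2 (clampR R h) ((1 - 4 * h) * z + h) ∧
        phi2 (clampR R h) ((1 - 4 * h) * z + 3 * h)
          - 2 * phi2 (clampR R h) ((1 - 4 * h) * z + 2 * h)
          + phi2 (clampR R h) ((1 - 4 * h) * z + h) ≤ 2 * R (1 / 2) * h ^ 2 := by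
    intro z hz
    obtain ⟨hy1, hy2⟩ := smsign_window h z hh' hz
    have e1 : (1 - 4 * h) * z + 3 * h = ((1 - 4 * h) * z + 2 * h) + h := by ring
    have e2 : (1 - 4 * h) * z + h = ((1 - 4 * h) * z + 2 * h) - h := by ring
    rw [e1, e2]
    apply avg_bounds (clampR R h) hcont ((1 - 4 * h) * z + 2 * h) h 0 (2 * R (1 / 2)) hh
    · intro t ht
      have ht1 : h ≤ t := by linarith [ht.1]
      have ht2 : t ≤ 1 - h := by linarith [ht.2]
      rw [smsign_clamp R h t ht1 ht2]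
      exact hpos t ⟨by linarith, by linarith⟩
    · intro t ht
      have ht1 : h ≤ t := by linarith [ht.1]
      have ht2 : t ≤ 1 - h := by linarith [ht.2]
      rw [smsign_clamp R h t ht1 ht2]
      exact hb t ⟨by linarith, by linarith⟩
  refine ⟨fun z hz => ?_, fun z hz => ?_, fun z hz => ?_⟩
  · unfold smooth
    have h0 := (key z hz).1
    rw [zero_mul] at h0
    exact div_nonneg h0 hh2.le
  · unfold smooth
    rw [div_le_iff₀ hh2]
    exact (key z hz).2
  · unfold smooth2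
    obtain ⟨hy1, hy2⟩ := smsign_window h z hh' hz
    rw [smsign_clamp R h ((1 - 4 * h) * z + 3 * h) (by linarith) (by linarith),
      smsign_clamp R h ((1 - 4 * h) * z + 2 * h) (by linarith) (by linarith),
      smsign_clamp R h ((1 - 4 * h) * z + h) (by linarith) (by linarith)]
    have hmid := hc.2
      (⟨by linarith, by linarith⟩ : (1 - 4 * h) * z + h ∈ Icc (0:ℝ) 1)
      (⟨by linarith, by linarith⟩ : (1 - 4 * h) * z + 3 * h ∈ Icc (0:ℝ) 1)
      (by norm_num : (0:ℝ) ≤ 1 / 2) (by norm_num : (0:ℝ) ≤ 1 / 2)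
      (by norm_num : (1 / 2 : ℝ) + 1 / 2 = 1)
    have e : (1 / 2 : ℝ) • ((1 - 4 * h) * z + h) + (1 / 2 : ℝ) • ((1 - 4 * h) * z + 3 * h)
        = (1 - 4 * h) * z + 2 * h := by
      simp only [smul_eq_mul]
      ring
    rw [e] at hmid
    simp only [smul_eq_mul] at hmid
    have hnum : R ((1 - 4 * h) * z + 3 * h) - 2 * R ((1 - 4 * h) * z + 2 * h)
        + R ((1 - 4 * h) * z + h) ≤ 0 := by linarith
    exact div_nonpos_of_nonpos_of_nonneg
      (mul_nonpos_of_nonneg_of_nonpos (sq_nonneg _) hnum) hh2.le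

/-! ### SMLIM -/

theorem smlim_window (R : ℝ → ℝ) (h z t : ℝ) (hh : 0 < h) (hh' : h < 1 / 8)
    (hz : z ∈ Ioo (0:ℝ) 1)
    (ht : t ∈ Icc ((1 - 4 * h) * z + 2 * h - h) ((1 - 4 * h) * z + 2 * h + h)) :
    clampR R h t = R t ∧ |t - z| ≤ 3 * h := by
  obtain ⟨hz0, hz1⟩ := hz
  obtain ⟨ht1, ht2⟩ := ht
  have h14 : 0 < 1 - 4 * h := by linarith
  have hzh : 0 < h * z := mul_pos hh hz0
  have hzh1 : h * z < h := by nlinarith
  have hp : 0 < (1 - 4 * h) * z := mul_pos h14 hz0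
  have hp1 : (1 - 4 * h) * z < 1 - 4 * h := by nlinarith
  have hlo : h ≤ t := by linarith
  have hhi : t ≤ 1 - h := by linarith
  constructor
  · unfold clampR
    rw [min_eq_left hhi, max_eq_right hlo]
  · rw [abs_le]
    constructor <;> nlinarith

theorem smooth_tendsto (R : ℝ → ℝ) (hc : ConcaveOn ℝ (Icc (0:ℝ) 1) R)
    (hpos : ∀ z ∈ Icc (0:ℝ) 1, 0 ≤ R z) (z : ℝ) (hz : z ∈ Ioo (0:ℝ) 1) :
    Tendsto (fun n : ℕ => smooth R (1 / ((n:ℝ) + 9)) z) atTop (𝓝 (R z)) := by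
  have _hp := hpos
  have hcontOn : ContinuousOn R (Ioo (0:ℝ) 1) := by
    have h1 := hc.continuousOn_interior
    rwa [interior_Icc] at h1
  have hcontAt : ContinuousAt R z := hcontOn.continuousAt (Ioo_mem_nhds hz.1 hz.2)
  rw [Metric.tendsto_atTop]
  intro ε hε
  obtain ⟨δ, hδ, hδR⟩ := Metric.continuousAt_iff.mp hcontAt (ε / 2) (by linarith)
  obtain ⟨N, hN⟩ := exists_nat_gt (4 / δ)
  refine ⟨N, fun n hn => ?_⟩
  have hn9 : (0:ℝ) < (n:ℝ) + 9 := by positivity
  have hh : (0:ℝ) < 1 / ((n:ℝ) + 9) := by positivity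
  have hh8 : 1 / ((n:ℝ) + 9) < 1 / 8 := by
    apply one_div_lt_one_div_of_lt (by norm_num)
    have hn0 : (0:ℝ) ≤ (n:ℝ) := Nat.cast_nonneg n
    linarith
  have h4 : 4 * (1 / ((n:ℝ) + 9)) < δ := by
    have hNn : (N:ℝ) ≤ (n:ℝ) := Nat.cast_le.mpr hn
    have h1 : 4 / δ < (n:ℝ) + 9 := by linarith
    rw [div_lt_iff₀ hδ] at h1
    rw [mul_one_div, div_lt_iff₀ hn9]
    linarith
  generalize 1 / ((n:ℝ) + 9) = h at hh hh8 h4 ⊢
  have hwin : ∀ t ∈ Icc ((1 - 4 * h) * z + 2 * h - h) ((1 - 4 * h) * z + 2 * h + h),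
      R z - ε / 2 ≤ clampR R h t ∧ clampR R h t ≤ R z + ε / 2 := by
    intro t ht
    obtain ⟨e1, e2⟩ := smlim_window R h z t hh hh8 hz ht
    have hd : dist t z < δ := by
      rw [Real.dist_eq]
      linarith
    have hR := hδR hd
    rw [Real.dist_eq, abs_lt] at hR
    rw [e1]
    constructor <;> linarith [hR.1, hR.2]
  have hcl : Continuous (clampR R h) := clampR_continuous R hc h hh (by linarith)
  have havg := avg_bounds (clampR R h) hcl ((1 - 4 * h) * z + 2 * h) h (R z - ε / 2)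
    (R z + ε / 2) hh (fun t ht => (hwin t ht).1) (fun t ht => (hwin t ht).2)
  have e1 : (1 - 4 * h) * z + 2 * h + h = (1 - 4 * h) * z + 3 * h := by ring
  have e2 : (1 - 4 * h) * z + 2 * h - h = (1 - 4 * h) * z + h := by ring
  rw [e1, e2] at havg
  have hh2 : 0 < h ^ 2 := by positivity
  have hlow : R z - ε / 2 ≤ smooth R h z := by
    unfold smooth
    rw [le_div_iff₀ hh2]
    exact havg.1
  have hupp : smooth R h z ≤ R z + ε / 2 := by
    unfold smooth
    rw [div_le_iff₀ hh2]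
    exact havg.2
  rw [Real.dist_eq, abs_lt]
  constructor <;> linarith

/-! ### SMDCT: convergence of the four moments -/

theorem smdct_gen (R : ℝ → ℝ) (hc : ConcaveOn ℝ (Icc (0:ℝ) 1) R)
    (hpos : ∀ z ∈ Icc (0:ℝ) 1, 0 ≤ R z) (Ψ : ℝ → ℝ → ℝ)
    (hΨ : Continuous (fun p : ℝ × ℝ => Ψ p.1 p.2)) (C : ℝ)
    (hC : ∀ z ∈ Icc (0:ℝ) 1, ∀ r ∈ Icc (0:ℝ) (2 * R (1 / 2)), |Ψ z r| ≤ C) :
    Tendsto (fun n : ℕ => ∫ z in (0:ℝ)..1, Ψ z (smooth R (1 / ((n:ℝ) + 9)) z)) atTop
      (𝓝 (∫ z in (0:ℝ)..1, Ψ z (R z))) := by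
  have hh : ∀ n : ℕ, (0:ℝ) < 1 / ((n:ℝ) + 9) := fun n => by positivity
  have hh8 : ∀ n : ℕ, 1 / ((n:ℝ) + 9) < 1 / 8 := by
    intro n
    apply one_div_lt_one_div_of_lt (by norm_num)
    have : (0:ℝ) ≤ (n:ℝ) := Nat.cast_nonneg n
    linarith
  have hsmc : ∀ n : ℕ, Continuous (smooth R (1 / ((n:ℝ) + 9))) := by
    intro n
    have hh2 : 1 / ((n:ℝ) + 9) < 1 / 2 := by linarith [hh8 n]
    have hcont := clampR_continuous R hc _ (hh n) hh2
    obtain ⟨d1, _, _⟩ := smooth_deriv R _ hcont (ne_of_gt (hh n))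
    exact continuous_iff_continuousAt.mpr (fun x => (d1 x).continuousAt)
  apply intervalIntegral.tendsto_integral_filter_of_dominated_convergence (fun _ => C)
  · refine Filter.Eventually.of_forall (fun n => ?_)
    exact (hΨ.comp (continuous_id.prodMk (hsmc n))).aestronglyMeasurable
  · refine Filter.Eventually.of_forall (fun n => ?_)
    refine Filter.Eventually.of_forall (fun z hz => ?_)
    rw [Set.uIoc_of_le (zero_le_one)] at hz
    have hz' : z ∈ Icc (0:ℝ) 1 := ⟨hz.1.le, hz.2⟩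
    obtain ⟨s1, s2, _⟩ := smooth_signs R hc hpos _ (hh n) (hh8 n)
    rw [Real.norm_eq_abs]
    exact hC z hz' _ ⟨s1 z hz', s2 z hz'⟩
  · exact intervalIntegrable_const
  · have h1 : ∀ᵐ z : ℝ, z ≠ 1 := by
      have h0 : (volume : Measure ℝ) {(1:ℝ)} = 0 := measure_singleton 1
      exact compl_mem_ae_iff.mpr h0
    filter_upwards [h1] with z hz1 hz
    rw [Set.uIoc_of_le (zero_le_one)] at hz
    have hzo : z ∈ Ioo (0:ℝ) 1 := ⟨hz.1, lt_of_le_of_ne hz.2 hz1⟩
    have ht := smooth_tendsto R hc hpos z hzo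
    have hcz : Continuous (fun r : ℝ => Ψ z r) :=
      hΨ.comp (continuous_const.prodMk continuous_id)
    exact (hcz.tendsto (R z)).comp ht

theorem smdct_bound (B z r : ℝ) (k : ℕ) (hz : z ∈ Icc (0:ℝ) 1) (hr : r ∈ Icc (0:ℝ) B) :
    |z ^ k * r| ≤ B := by
  have h1 : 0 ≤ z ^ k := pow_nonneg hz.1 k
  have h2 : z ^ k ≤ 1 := pow_le_one₀ hz.1 hz.2
  rw [abs_of_nonneg (mul_nonneg h1 hr.1)]
  calc z ^ k * r ≤ 1 * r := mul_le_mul_of_nonneg_right h2 hr.1
    _ = r := one_mul r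
    _ ≤ B := hr.2

theorem moments_tendsto (R : ℝ → ℝ) (hc : ConcaveOn ℝ (Icc (0:ℝ) 1) R)
    (hpos : ∀ z ∈ Icc (0:ℝ) 1, 0 ≤ R z) :
    Tendsto (fun n : ℕ => mA (smooth R (1 / ((n:ℝ) + 9)))) atTop (𝓝 (mA R)) ∧
    Tendsto (fun n : ℕ => mM1 (smooth R (1 / ((n:ℝ) + 9)))) atTop (𝓝 (mM1 R)) ∧
    Tendsto (fun n : ℕ => mM2 (smooth R (1 / ((n:ℝ) + 9)))) atTop (𝓝 (mM2 R)) ∧
    Tendsto (fun n : ℕ => mS (smooth R (1 / ((n:ℝ) + 9)))) atTop (𝓝 (mS R)) := by
  refine ⟨?_, ?_, ?_, ?_⟩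
  · have h := smdct_gen R hc hpos (fun z r => z * r) (by fun_prop) (2 * R (1 / 2))
      (fun z hz r hr => by simpa using smdct_bound (2 * R (1 / 2)) z r 1 hz hr)
    exact h
  · have h := smdct_gen R hc hpos (fun z r => z ^ 2 * r) (by fun_prop) (2 * R (1 / 2))
      (fun z hz r hr => smdct_bound (2 * R (1 / 2)) z r 2 hz hr)
    exact h
  · have h := smdct_gen R hc hpos (fun z r => z ^ 3 * r) (by fun_prop) (2 * R (1 / 2))
      (fun z hz r hr => smdct_bound (2 * R (1 / 2)) z r 3 hz hr)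
    exact h
  · have h := smdct_gen R hc hpos (fun z r => z * r ^ 2) (by fun_prop) ((2 * R (1 / 2)) ^ 2)
      (fun z hz r hr => by
        have h1 : 0 ≤ r ^ 2 := pow_nonneg hr.1 2
        have h2 : r ^ 2 ≤ (2 * R (1 / 2)) ^ 2 := pow_le_pow_left₀ hr.1 hr.2 2
        rw [abs_of_nonneg (mul_nonneg hz.1 h1)]
        calc z * r ^ 2 ≤ 1 * r ^ 2 := mul_le_mul_of_nonneg_right hz.2 h1
          _ = r ^ 2 := one_mul _
          _ ≤ _ := h2)
    exact h

/-! ### Assembly -/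

/-- **(RAMP) for every concave profile.** For `R ≥ 0` concave on `[0,1]`:
`80 (∫ z² R)² (∫ z R²)² ((∫ z R)(∫ z³ R) - (∫ z² R)²) ≤ 9 (∫ z R)⁸`. -/
theorem ramp_ineq_concave (R : ℝ → ℝ) (hc : ConcaveOn ℝ (Icc (0:ℝ) 1) R)
    (hpos : ∀ z ∈ Icc (0:ℝ) 1, 0 ≤ R z) :
    80 * (mM1 R) ^ 2 * (mS R) ^ 2 * (mA R * mM2 R - (mM1 R) ^ 2) ≤ 9 * (mA R) ^ 8 := by
  obtain ⟨hA, hM1, hM2, hS⟩ := moments_tendsto R hc hpos
  have hineq : ∀ n : ℕ,
      80 * (mM1 (smooth R (1 / ((n:ℝ) + 9)))) ^ 2 * (mS (smooth R (1 / ((n:ℝ) + 9)))) ^ 2 *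
        (mA (smooth R (1 / ((n:ℝ) + 9))) * mM2 (smooth R (1 / ((n:ℝ) + 9)))
          - (mM1 (smooth R (1 / ((n:ℝ) + 9)))) ^ 2)
        ≤ 9 * (mA (smooth R (1 / ((n:ℝ) + 9)))) ^ 8 := by
    intro n
    have hn : (0:ℝ) < (n:ℝ) + 9 := by positivity
    have hh : (0:ℝ) < 1 / ((n:ℝ) + 9) := by positivity
    have hh8 : 1 / ((n:ℝ) + 9) < 1 / 8 := by
      apply one_div_lt_one_div_of_lt (by norm_num)
      have : (0:ℝ) ≤ (n:ℝ) := Nat.cast_nonneg n
      linarith
    have hh2 : 1 / ((n:ℝ) + 9) < 1 / 2 := by linarith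
    have hcont := clampR_continuous R hc _ hh hh2
    obtain ⟨d1, d2, d3⟩ := smooth_deriv R _ hcont (ne_of_gt hh)
    obtain ⟨s1, _, s3⟩ := smooth_signs R hc hpos _ hh hh8
    exact ramp_ineq _ _ _ d1 d2 d3 s1 s3
  have hL : Tendsto (fun n : ℕ =>
      80 * (mM1 (smooth R (1 / ((n:ℝ) + 9)))) ^ 2 * (mS (smooth R (1 / ((n:ℝ) + 9)))) ^ 2 *
        (mA (smooth R (1 / ((n:ℝ) + 9))) * mM2 (smooth R (1 / ((n:ℝ) + 9)))
          - (mM1 (smooth R (1 / ((n:ℝ) + 9)))) ^ 2)) atTop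
      (𝓝 (80 * (mM1 R) ^ 2 * (mS R) ^ 2 * (mA R * mM2 R - (mM1 R) ^ 2))) :=
    (((hM1.pow 2).const_mul 80).mul (hS.pow 2)).mul ((hA.mul hM2).sub (hM1.pow 2))
  have hRt : Tendsto (fun n : ℕ => 9 * (mA (smooth R (1 / ((n:ℝ) + 9)))) ^ 8) atTop
      (𝓝 (9 * (mA R) ^ 8)) := (hA.pow 8).const_mul 9
  exact le_of_tendsto_of_tendsto' hL hRt hineq

end Vale.Agent.Lib.P254.Ramp
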