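import Vale.Agent.Lib.P254.Ramp.Body
import Vale.Agent.Lib.P254.Ramp.Smooth

/-!
# P254, wedge class: the final statement

For a continuous concave profile `R ≥ 0` on `[0,1]`, not identically zero, the body
`{x ∈ ℝ³ | 0 ≤ x₀ ≤ 1, |x₁| ≤ x₀, |x₂| ≤ R x₀}` is a convex body whose isotropic constant is at
most that of the tetrahedra.
-/

open Set

namespace Vale.Agent.Lib.P254.Ramp

open Vale.Agent.Lib.P254

/-- **The wedge class.** The wedge body of a continuous concave nonnegative profile that is not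
identically zero is a convex body with `L_K ≤ L_T` for every tetrahedron `T`. -/
theorem wedge_body_isotropic_le (R : ℝ → ℝ) (hc : ConcaveOn ℝ (Icc 0 1) R)
    (hcont : ContinuousOn R (Icc 0 1)) (hpos : ∀ t ∈ Icc (0:ℝ) 1, 0 ≤ R t)
    (hne : ∃ t ∈ Icc (0:ℝ) 1, 0 < R t)
    (T : Fin 4 → Fin 3 → ℝ) (hT : AffineIndependent ℝ T) :
    IsCompact (wedge R) ∧ Convex ℝ (wedge R) ∧ (interior (wedge R)).Nonempty ∧
      isotropicConstant (wedge R) ≤ isotropicConstant (convexHull ℝ (Set.range T)) :=
  ⟨wedge_isCompact hcont, wedge_convex hc, wedge_interior hc hcont hpos hne,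
    wedge_isotropic_le_of_ramp R hc hcont hpos hne (ramp_ineq_concave R hc hpos) T hT⟩

end Vale.Agent.Lib.P254.Ramp
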