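import Vale.Agent.Lib.P254.Ramp.Defs

/-!
# P254, wedge class: the one-dimensional inequality (RAMP) for twice differentiable profiles

`80 * M1^2 * S^2 * (A*M2 - M1^2) ≤ 9 * A^8` for `R ≥ 0` with `R'' ≤ 0` on `[0,1]`, where
`A = ∫ z R`, `M1 = ∫ z² R`, `M2 = ∫ z³ R`, `S = ∫ z R²` over `[0,1]`.
-/

namespace Vale.Agent.Lib.P254.Ramp

open MeasureTheory intervalIntegral Set

/-! ### IBP -/

theorem ibp2 (R R1 R2 K K1 K2 : ℝ → ℝ)
    (hR : ∀ x, HasDerivAt R (R1 x) x) (hR1 : ∀ x, HasDerivAt R1 (R2 x) x)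
    (hR2 : Continuous R2)
    (hK : ∀ x, HasDerivAt K (K1 x) x) (hK1 : ∀ x, HasDerivAt K1 (K2 x) x)
    (hK2 : Continuous K2) (hK0 : K 0 = 0) (hK1' : K 1 = 0) :
    ∫ z in (0:ℝ)..1, R z * (-(K2 z)) =
      R 0 * K1 0 - R 1 * K1 1 + ∫ z in (0:ℝ)..1, (-(R2 z)) * K z := by
  have hRc : Continuous R := continuous_iff_continuousAt.mpr fun x => (hR x).continuousAt
  have hKc : Continuous K := continuous_iff_continuousAt.mpr fun x => (hK x).continuousAt
  have hd : ∀ x ∈ uIcc (0:ℝ) 1,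
      HasDerivAt (fun x => R1 x * K x - R x * K1 x) (R2 x * K x - R x * K2 x) x := by
    intro x _
    have h := ((hR1 x).mul (hK x)).sub ((hR x).mul (hK1 x))
    refine h.congr_deriv ?_
    ring
  have hi1 : IntervalIntegrable (fun x => R2 x * K x) volume 0 1 :=
    (hR2.mul hKc).intervalIntegrable _ _
  have hi2 : IntervalIntegrable (fun x => R x * K2 x) volume 0 1 :=
    (hRc.mul hK2).intervalIntegrable _ _
  have hftc := intervalIntegral.integral_eq_sub_of_hasDerivAt hd (hi1.sub hi2)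
  have hsplit : ∫ x in (0:ℝ)..1, (R2 x * K x - R x * K2 x)
      = (∫ x in (0:ℝ)..1, R2 x * K x) - ∫ x in (0:ℝ)..1, R x * K2 x :=
    intervalIntegral.integral_sub hi1 hi2
  have e1 : ∫ z in (0:ℝ)..1, R z * (-(K2 z)) = -∫ z in (0:ℝ)..1, R z * K2 z := by
    rw [← intervalIntegral.integral_neg]
    apply intervalIntegral.integral_congr
    intro z _
    ring
  have e2 : ∫ z in (0:ℝ)..1, (-(R2 z)) * K z = -∫ z in (0:ℝ)..1, R2 z * K z := by
    rw [← intervalIntegral.integral_neg]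
    apply intervalIntegral.integral_congr
    intro z _
    ring
  rw [e1, e2]
  rw [hsplit, hK0, hK1'] at hftc
  linarith

/-! ### MOM-A -/

theorem moma_poly_deriv3 (x : ℝ) :
    HasDerivAt (fun c : ℝ => c ^ 3 * (1 - c) ^ 2 / 20)
      ((3 * x ^ 2 - 8 * x ^ 3 + 5 * x ^ 4) / 20) x := by
  have hid := hasDerivAt_id' x
  have h : HasDerivAt (fun c : ℝ => c ^ 3 * (1 - c) ^ 2 / 20) _ x :=
    ((hid.pow 3).mul ((hid.const_sub 1).pow 2)).div_const 20
  refine h.congr_deriv ?_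
  simp
  ring

theorem moma_poly_deriv3' (x : ℝ) :
    HasDerivAt (fun c : ℝ => (3 * c ^ 2 - 8 * c ^ 3 + 5 * c ^ 4) / 20)
      ((6 * x - 24 * x ^ 2 + 20 * x ^ 3) / 20) x := by
  have hid := hasDerivAt_id' x
  have h : HasDerivAt (fun c : ℝ => (3 * c ^ 2 - 8 * c ^ 3 + 5 * c ^ 4) / 20) _ x :=
    ((((hid.pow 2).const_mul 3).sub ((hid.pow 3).const_mul 8)).add
      ((hid.pow 4).const_mul 5)).div_const 20
  refine h.congr_deriv ?_
  simp
  ring

theorem moma_poly_deriv1 (x : ℝ) :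
    HasDerivAt (fun c : ℝ => c * (1 - c ^ 2) / 6) ((1 - 3 * x ^ 2) / 6) x := by
  have hid := hasDerivAt_id' x
  have h : HasDerivAt (fun c : ℝ => c * (1 - c ^ 2) / 6) _ x :=
    (hid.mul ((hid.pow 2).const_sub 1)).div_const 6
  refine h.congr_deriv ?_
  simp
  ring

theorem moma_poly_deriv1' (x : ℝ) :
    HasDerivAt (fun c : ℝ => (1 - 3 * c ^ 2) / 6) (-x) x := by
  have hid := hasDerivAt_id' x
  have h : HasDerivAt (fun c : ℝ => (1 - 3 * c ^ 2) / 6) _ x :=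
    (((hid.pow 2).const_mul 3).const_sub 1).div_const 6
  refine h.congr_deriv ?_
  simp
  ring

theorem l_eq (R R1 R2 : ℝ → ℝ)
    (hR : ∀ x, HasDerivAt R (R1 x) x) (hR1 : ∀ x, HasDerivAt R1 (R2 x) x)
    (hR2 : Continuous R2) :
    6 / 5 * mM1 R - 3 / 10 * mA R - mM2 R =
      ∫ c in (0:ℝ)..1, (-(R2 c)) * (c ^ 3 * (1 - c) ^ 2 / 20) := by
  have hRc : Continuous R := continuous_iff_continuousAt.mpr fun x => (hR x).continuousAt
  have key := ibp2 R R1 R2 (fun c : ℝ => c ^ 3 * (1 - c) ^ 2 / 20)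
    (fun c : ℝ => (3 * c ^ 2 - 8 * c ^ 3 + 5 * c ^ 4) / 20)
    (fun c : ℝ => (6 * c - 24 * c ^ 2 + 20 * c ^ 3) / 20) hR hR1 hR2
    moma_poly_deriv3 moma_poly_deriv3' (by fun_prop) (by norm_num) (by norm_num)
  have e0 : R 0 * ((fun c : ℝ => (3 * c ^ 2 - 8 * c ^ 3 + 5 * c ^ 4) / 20) 0)
      - R 1 * ((fun c : ℝ => (3 * c ^ 2 - 8 * c ^ 3 + 5 * c ^ 4) / 20) 1) = 0 := by
    norm_num
  rw [e0, zero_add] at key
  rw [← key]
  have i1 : IntervalIntegrable (fun z : ℝ => z ^ 2 * R z) volume 0 1 :=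
    (by fun_prop : Continuous fun z : ℝ => z ^ 2 * R z).intervalIntegrable _ _
  have i2 : IntervalIntegrable (fun z : ℝ => z * R z) volume 0 1 :=
    (by fun_prop : Continuous fun z : ℝ => z * R z).intervalIntegrable _ _
  have i3 : IntervalIntegrable (fun z : ℝ => z ^ 3 * R z) volume 0 1 :=
    (by fun_prop : Continuous fun z : ℝ => z ^ 3 * R z).intervalIntegrable _ _
  unfold mM1 mA mM2
  rw [← intervalIntegral.integral_const_mul, ← intervalIntegral.integral_const_mul,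
    ← intervalIntegral.integral_sub (i1.const_mul _) (i2.const_mul _),
    ← intervalIntegral.integral_sub ((i1.const_mul _).sub (i2.const_mul _)) i3]
  refine intervalIntegral.integral_congr fun z _ => ?_
  show 6 / 5 * (z ^ 2 * R z) - 3 / 10 * (z * R z) - z ^ 3 * R z
    = R z * (-((6 * z - 24 * z ^ 2 + 20 * z ^ 3) / 20))
  ring

theorem A_eq (R R1 R2 : ℝ → ℝ)
    (hR : ∀ x, HasDerivAt R (R1 x) x) (hR1 : ∀ x, HasDerivAt R1 (R2 x) x)
    (hR2 : Continuous R2) :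
    mA R = R 0 / 6 + R 1 / 3 + ∫ c in (0:ℝ)..1, (-(R2 c)) * (c * (1 - c ^ 2) / 6) := by
  have key := ibp2 R R1 R2 (fun c : ℝ => c * (1 - c ^ 2) / 6)
    (fun c : ℝ => (1 - 3 * c ^ 2) / 6) (fun c : ℝ => -c) hR hR1 hR2
    moma_poly_deriv1 moma_poly_deriv1' (by fun_prop) (by norm_num) (by norm_num)
  have e0 : R 0 * ((fun c : ℝ => (1 - 3 * c ^ 2) / 6) 0)
      - R 1 * ((fun c : ℝ => (1 - 3 * c ^ 2) / 6) 1) = R 0 / 6 + R 1 / 3 := by
    norm_num
    ring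
  rw [e0] at key
  rw [← key]
  unfold mA
  refine intervalIntegral.integral_congr fun z _ => ?_
  show z * R z = R z * (-(-z))
  ring

/-! ### MOM-B -/

theorem momb_pow2 (x : ℝ) : HasDerivAt (fun c : ℝ => c ^ 2) (2 * x) x := by
  simpa using hasDerivAt_pow 2 x

theorem momb_pow3 (x : ℝ) : HasDerivAt (fun c : ℝ => c ^ 3) (3 * x ^ 2) x := by
  simpa using hasDerivAt_pow 3 x

theorem momb_pow4 (x : ℝ) : HasDerivAt (fun c : ℝ => c ^ 4) (4 * x ^ 3) x := by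
  simpa using hasDerivAt_pow 4 x

theorem momb_al_d1 (x : ℝ) :
    HasDerivAt (fun c : ℝ => c * (1 - c) ^ 2 * (1 + 2 * c)) (1 - 9 * x ^ 2 + 8 * x ^ 3) x := by
  have hKeq : (fun c : ℝ => c * (1 - c) ^ 2 * (1 + 2 * c))
      = fun c => c - 3 * c ^ 3 + 2 * c ^ 4 := by
    funext c
    ring
  rw [hKeq]
  have h : HasDerivAt (fun c : ℝ => c - 3 * c ^ 3 + 2 * c ^ 4)
      (1 - 3 * (3 * x ^ 2) + 2 * (4 * x ^ 3)) x :=
    ((hasDerivAt_id' x).sub ((momb_pow3 x).const_mul 3)).add ((momb_pow4 x).const_mul 2)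
  exact h.congr_deriv (by ring)

theorem momb_al_d2 (x : ℝ) :
    HasDerivAt (fun c : ℝ => 1 - 9 * c ^ 2 + 8 * c ^ 3) (-18 * x + 24 * x ^ 2) x := by
  have h : HasDerivAt (fun c : ℝ => 1 - 9 * c ^ 2 + 8 * c ^ 3)
      (0 - 9 * (2 * x) + 8 * (3 * x ^ 2)) x :=
    ((hasDerivAt_const x (1:ℝ)).sub ((momb_pow2 x).const_mul 9)).add
      ((momb_pow3 x).const_mul 8)
  exact h.congr_deriv (by ring)

theorem momb_be_d1 (x : ℝ) :
    HasDerivAt (fun c : ℝ => c ^ 3 * (1 - c)) (3 * x ^ 2 - 4 * x ^ 3) x := by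
  have hKeq : (fun c : ℝ => c ^ 3 * (1 - c)) = fun c => c ^ 3 - c ^ 4 := by
    funext c
    ring
  rw [hKeq]
  exact (momb_pow3 x).sub (momb_pow4 x)

theorem momb_be_d2 (x : ℝ) :
    HasDerivAt (fun c : ℝ => 3 * c ^ 2 - 4 * c ^ 3) (6 * x - 12 * x ^ 2) x := by
  have h : HasDerivAt (fun c : ℝ => 3 * c ^ 2 - 4 * c ^ 3)
      (3 * (2 * x) - 4 * (3 * x ^ 2)) x :=
    ((momb_pow2 x).const_mul 3).sub ((momb_pow3 x).const_mul 4)
  exact h.congr_deriv (by ring)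

theorem al_eq (R R1 R2 : ℝ → ℝ)
    (hR : ∀ x, HasDerivAt R (R1 x) x) (hR1 : ∀ x, HasDerivAt R1 (R2 x) x)
    (hR2 : Continuous R2) :
    18 * mA R - 24 * mM1 R =
      R 0 + ∫ c in (0:ℝ)..1, (-(R2 c)) * (c * (1 - c) ^ 2 * (1 + 2 * c)) := by
  have hK2 : Continuous (fun c : ℝ => -18 * c + 24 * c ^ 2) := by fun_prop
  have key := ibp2 R R1 R2 (fun c : ℝ => c * (1 - c) ^ 2 * (1 + 2 * c))
    (fun c => 1 - 9 * c ^ 2 + 8 * c ^ 3) (fun c => -18 * c + 24 * c ^ 2) hR hR1 hR2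
    momb_al_d1 momb_al_d2 hK2 (by norm_num) (by norm_num)
  have hRc : Continuous R := continuous_iff_continuousAt.mpr (fun x => (hR x).continuousAt)
  have hlin : ∫ z in (0:ℝ)..1, R z * (-(-18 * z + 24 * z ^ 2)) = 18 * mA R - 24 * mM1 R := by
    have e : ∀ z : ℝ, R z * (-(-18 * z + 24 * z ^ 2))
        = 18 * (z * R z) - 24 * (z ^ 2 * R z) := fun z => by ring
    have i1 : IntervalIntegrable (fun z : ℝ => 18 * (z * R z)) volume 0 1 :=
      (by fun_prop : Continuous fun z : ℝ => 18 * (z * R z)).intervalIntegrable _ _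
    have i2 : IntervalIntegrable (fun z : ℝ => 24 * (z ^ 2 * R z)) volume 0 1 :=
      (by fun_prop : Continuous fun z : ℝ => 24 * (z ^ 2 * R z)).intervalIntegrable _ _
    unfold mA mM1
    simp only [e]
    rw [intervalIntegral.integral_sub i1 i2, intervalIntegral.integral_const_mul,
      intervalIntegral.integral_const_mul]
  rw [← hlin, key]
  norm_num

theorem be_eq (R R1 R2 : ℝ → ℝ)
    (hR : ∀ x, HasDerivAt R (R1 x) x) (hR1 : ∀ x, HasDerivAt R1 (R2 x) x)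
    (hR2 : Continuous R2) :
    12 * mM1 R - 6 * mA R =
      R 1 + ∫ c in (0:ℝ)..1, (-(R2 c)) * (c ^ 3 * (1 - c)) := by
  have hK2 : Continuous (fun c : ℝ => 6 * c - 12 * c ^ 2) := by fun_prop
  have key := ibp2 R R1 R2 (fun c : ℝ => c ^ 3 * (1 - c))
    (fun c => 3 * c ^ 2 - 4 * c ^ 3) (fun c => 6 * c - 12 * c ^ 2) hR hR1 hR2
    momb_be_d1 momb_be_d2 hK2 (by norm_num) (by norm_num)
  have hRc : Continuous R := continuous_iff_continuousAt.mpr (fun x => (hR x).continuousAt)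
  have hlin : ∫ z in (0:ℝ)..1, R z * (-(6 * z - 12 * z ^ 2)) = 12 * mM1 R - 6 * mA R := by
    have e : ∀ z : ℝ, R z * (-(6 * z - 12 * z ^ 2))
        = 12 * (z ^ 2 * R z) - 6 * (z * R z) := fun z => by ring
    have i1 : IntervalIntegrable (fun z : ℝ => 12 * (z ^ 2 * R z)) volume 0 1 :=
      (by fun_prop : Continuous fun z : ℝ => 12 * (z ^ 2 * R z)).intervalIntegrable _ _
    have i2 : IntervalIntegrable (fun z : ℝ => 6 * (z * R z)) volume 0 1 :=
      (by fun_prop : Continuous fun z : ℝ => 6 * (z * R z)).intervalIntegrable _ _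
    unfold mA mM1
    simp only [e]
    rw [intervalIntegral.integral_sub i1 i2, intervalIntegral.integral_const_mul,
      intervalIntegral.integral_const_mul]
  rw [← hlin, key]
  norm_num

/-! ### PROJ-A -/

theorem proja_poly (al be : ℝ) (k : ℕ) :
    ∫ z in (0:ℝ)..1, (al * z ^ (k + 1) + (be - al) * z ^ (k + 2))
      = al / ((k : ℝ) + 2) + (be - al) / ((k : ℝ) + 3) := by
  have i1 : IntervalIntegrable (fun z : ℝ => al * z ^ (k + 1)) MeasureTheory.volume 0 1 :=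
    (by fun_prop : Continuous fun z : ℝ => al * z ^ (k + 1)).intervalIntegrable 0 1
  have i2 : IntervalIntegrable (fun z : ℝ => (be - al) * z ^ (k + 2)) MeasureTheory.volume 0 1 :=
    (by fun_prop : Continuous fun z : ℝ => (be - al) * z ^ (k + 2)).intervalIntegrable 0 1
  rw [intervalIntegral.integral_add i1 i2, intervalIntegral.integral_const_mul,
    intervalIntegral.integral_const_mul, integral_pow, integral_pow]
  push_cast
  simp only [one_pow, ne_eq, Nat.add_eq_zero_iff, one_ne_zero, and_false, not_false_eq_true,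
    zero_pow, sub_zero]
  ring

theorem proja_int (R : ℝ → ℝ) (hR : Continuous R) (al be : ℝ) (k : ℕ) :
    ∫ z in (0:ℝ)..1, z ^ (k + 1) * (R z - (al * (1 - z) + be * z))
      = (∫ z in (0:ℝ)..1, z ^ (k + 1) * R z)
        - (al / ((k : ℝ) + 2) + (be - al) / ((k : ℝ) + 3)) := by
  have h1 : IntervalIntegrable (fun z : ℝ => z ^ (k + 1) * R z) MeasureTheory.volume 0 1 :=
    (by fun_prop : Continuous fun z : ℝ => z ^ (k + 1) * R z).intervalIntegrable 0 1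
  have h2 : IntervalIntegrable (fun z : ℝ => al * z ^ (k + 1) + (be - al) * z ^ (k + 2))
      MeasureTheory.volume 0 1 :=
    (by fun_prop : Continuous fun z : ℝ =>
      al * z ^ (k + 1) + (be - al) * z ^ (k + 2)).intervalIntegrable 0 1
  have e : (fun z : ℝ => z ^ (k + 1) * (R z - (al * (1 - z) + be * z)))
      = fun z => z ^ (k + 1) * R z - (al * z ^ (k + 1) + (be - al) * z ^ (k + 2)) := by
    funext z
    ring
  rw [e, intervalIntegral.integral_sub h1 h2, proja_poly]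

theorem psi_orth0 (R : ℝ → ℝ) (hR : Continuous R) :
    ∫ z in (0:ℝ)..1, z * (R z - ((18 * mA R - 24 * mM1 R) * (1 - z)
      + (12 * mM1 R - 6 * mA R) * z)) = 0 := by
  have h := proja_int R hR (18 * mA R - 24 * mM1 R) (12 * mM1 R - 6 * mA R) 0
  simp only [zero_add, pow_one, Nat.cast_zero] at h
  rw [h]
  unfold mA mM1
  ring

theorem psi_orth1 (R : ℝ → ℝ) (hR : Continuous R) :
    ∫ z in (0:ℝ)..1, z ^ 2 * (R z - ((18 * mA R - 24 * mM1 R) * (1 - z)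
      + (12 * mM1 R - 6 * mA R) * z)) = 0 := by
  have h := proja_int R hR (18 * mA R - 24 * mM1 R) (12 * mM1 R - 6 * mA R) 1
  simp only [Nat.cast_one] at h
  have h' : ∫ z in (0:ℝ)..1, z ^ 2 * (R z - ((18 * mA R - 24 * mM1 R) * (1 - z)
      + (12 * mM1 R - 6 * mA R) * z))
      = (∫ z in (0:ℝ)..1, z ^ 2 * R z)
        - ((18 * mA R - 24 * mM1 R) / ((1 : ℝ) + 2)
          + ((12 * mM1 R - 6 * mA R) - (18 * mA R - 24 * mM1 R)) / ((1 : ℝ) + 3)) := h
  rw [h']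
  unfold mA mM1
  ring

/-! ### PROJ-B -/

/-- Integral over `[0,1]` of a cubic polynomial without constant term. -/
theorem projb_int_poly (c1 c2 c3 : ℝ) :
    ∫ z in (0:ℝ)..1, (c1 * z + c2 * z ^ 2 + c3 * z ^ 3) = c1 / 2 + c2 / 3 + c3 / 4 := by
  have hd : ∀ t ∈ Set.uIcc (0:ℝ) 1,
      HasDerivAt (fun t : ℝ => c1 * t ^ 2 / 2 + c2 * t ^ 3 / 3 + c3 * t ^ 4 / 4)
        (c1 * t + c2 * t ^ 2 + c3 * t ^ 3) t := by
    intro t _
    have h2 : HasDerivAt (fun t : ℝ => c1 * t ^ 2 / 2) (c1 * t) t := by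
      have := ((hasDerivAt_pow 2 t).const_mul c1).div_const 2
      exact this.congr_deriv (by norm_num; ring)
    have h3 : HasDerivAt (fun t : ℝ => c2 * t ^ 3 / 3) (c2 * t ^ 2) t := by
      have := ((hasDerivAt_pow 3 t).const_mul c2).div_const 3
      exact this.congr_deriv (by norm_num; ring)
    have h4 : HasDerivAt (fun t : ℝ => c3 * t ^ 4 / 4) (c3 * t ^ 3) t := by
      have := ((hasDerivAt_pow 4 t).const_mul c3).div_const 4
      exact this.congr_deriv (by norm_num; ring)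
    exact (h2.add h3).add h4
  rw [intervalIntegral.integral_eq_sub_of_hasDerivAt hd
    (Continuous.intervalIntegrable (by fun_prop) _ _)]
  ring

/-- Pythagoras for the weight `z dz` on `[0,1]`: if `R - p` is orthogonal to `1` and to `z`,
where `p z = al * (1 - z) + be * z`, then `‖R - p‖² = ⟨R - p, R⟩` and
`‖R‖² = ‖p‖² + ‖R - p‖²`, with `‖p‖² = al² / 12 + al * be / 6 + be² / 4`. -/
theorem projb_aux (R : ℝ → ℝ) (hR : Continuous R) (al be : ℝ)
    (h0 : ∫ z in (0:ℝ)..1, z * (R z - (al * (1 - z) + be * z)) = 0)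
    (h1 : ∫ z in (0:ℝ)..1, z ^ 2 * (R z - (al * (1 - z) + be * z)) = 0) :
    (∫ z in (0:ℝ)..1, z * (R z - (al * (1 - z) + be * z)) ^ 2
        = ∫ z in (0:ℝ)..1, z * (R z - (al * (1 - z) + be * z)) * R z) ∧
    (∫ z in (0:ℝ)..1, z * (R z) ^ 2 = al ^ 2 / 12 + al * be / 6 + be ^ 2 / 4
        + ∫ z in (0:ℝ)..1, z * (R z - (al * (1 - z) + be * z)) ^ 2) := by
  have i0 : IntervalIntegrable (fun z : ℝ => z * (R z - (al * (1 - z) + be * z)))
      volume 0 1 := Continuous.intervalIntegrable (by fun_prop) _ _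
  have i1 : IntervalIntegrable (fun z : ℝ => z ^ 2 * (R z - (al * (1 - z) + be * z)))
      volume 0 1 := Continuous.intervalIntegrable (by fun_prop) _ _
  have iR : IntervalIntegrable (fun z : ℝ => z * (R z - (al * (1 - z) + be * z)) * R z)
      volume 0 1 := Continuous.intervalIntegrable (by fun_prop) _ _
  have iP : IntervalIntegrable
      (fun z : ℝ => z * (R z - (al * (1 - z) + be * z)) * (al * (1 - z) + be * z))
      volume 0 1 := Continuous.intervalIntegrable (by fun_prop) _ _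
  have iQ : IntervalIntegrable (fun z : ℝ => z * (R z - (al * (1 - z) + be * z)) ^ 2)
      volume 0 1 := Continuous.intervalIntegrable (by fun_prop) _ _
  have iZ : IntervalIntegrable
      (fun z : ℝ => al ^ 2 * z + 2 * al * (be - al) * z ^ 2 + (be - al) ^ 2 * z ^ 3)
      volume 0 1 := Continuous.intervalIntegrable (by fun_prop) _ _
  have key0 : ∫ z in (0:ℝ)..1,
      z * (R z - (al * (1 - z) + be * z)) * (al * (1 - z) + be * z) = 0 := by
    have e : (fun z : ℝ => z * (R z - (al * (1 - z) + be * z)) * (al * (1 - z) + be * z))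
        = fun z : ℝ => al * (z * (R z - (al * (1 - z) + be * z)))
            + (be - al) * (z ^ 2 * (R z - (al * (1 - z) + be * z))) := by
      funext z
      ring
    rw [e, intervalIntegral.integral_add (i0.const_mul al) (i1.const_mul (be - al)),
      intervalIntegral.integral_const_mul, intervalIntegral.integral_const_mul, h0, h1]
    ring
  have hA : ∫ z in (0:ℝ)..1, z * (R z - (al * (1 - z) + be * z)) ^ 2
      = ∫ z in (0:ℝ)..1, z * (R z - (al * (1 - z) + be * z)) * R z := by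
    have e : (fun z : ℝ => z * (R z - (al * (1 - z) + be * z)) ^ 2)
        = fun z : ℝ => z * (R z - (al * (1 - z) + be * z)) * R z
            - z * (R z - (al * (1 - z) + be * z)) * (al * (1 - z) + be * z) := by
      funext z
      ring
    rw [e, intervalIntegral.integral_sub iR iP, key0, sub_zero]
  refine ⟨hA, ?_⟩
  have e : (fun z : ℝ => z * (R z) ^ 2)
      = fun z : ℝ => ((al ^ 2 * z + 2 * al * (be - al) * z ^ 2 + (be - al) ^ 2 * z ^ 3)
          + 2 * (z * (R z - (al * (1 - z) + be * z)) * (al * (1 - z) + be * z)))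
          + z * (R z - (al * (1 - z) + be * z)) ^ 2 := by
    funext z
    ring
  rw [e, intervalIntegral.integral_add (iZ.add (iP.const_mul 2)) iQ,
    intervalIntegral.integral_add iZ (iP.const_mul 2), intervalIntegral.integral_const_mul,
    key0, projb_int_poly]
  ring

/-- Pythagoras: `S = Psi0 + ‖psi‖²`, and `‖psi‖² = ⟨psi, R⟩`. -/
theorem S_split (R : ℝ → ℝ) (hR : Continuous R) :
    mS R = (18 * mA R - 24 * mM1 R) ^ 2 / 12
        + (18 * mA R - 24 * mM1 R) * (12 * mM1 R - 6 * mA R) / 6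
        + (12 * mM1 R - 6 * mA R) ^ 2 / 4
        + ∫ z in (0:ℝ)..1, z * (R z - ((18 * mA R - 24 * mM1 R) * (1 - z)
            + (12 * mM1 R - 6 * mA R) * z)) ^ 2 := by
  unfold mS
  exact (projb_aux R hR _ _ (psi_orth0 R hR) (psi_orth1 R hR)).2

theorem Spsi_eq (R : ℝ → ℝ) (hR : Continuous R) :
    ∫ z in (0:ℝ)..1, z * (R z - ((18 * mA R - 24 * mM1 R) * (1 - z)
        + (12 * mM1 R - 6 * mA R) * z)) ^ 2 =
      ∫ z in (0:ℝ)..1, z * (R z - ((18 * mA R - 24 * mM1 R) * (1 - z)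
        + (12 * mM1 R - 6 * mA R) * z)) * R z :=
  (projb_aux R hR _ _ (psi_orth0 R hR) (psi_orth1 R hR)).1

/-! ### WIBP: the second antiderivative `W` of `z psi` -/

theorem W_ibp (R R1 R2 ψ : ℝ → ℝ)
    (hR : ∀ x, HasDerivAt R (R1 x) x) (hR1 : ∀ x, HasDerivAt R1 (R2 x) x)
    (hR2 : Continuous R2) (hψ : Continuous ψ)
    (h0 : ∫ z in (0:ℝ)..1, z * ψ z = 0) (h1 : ∫ z in (0:ℝ)..1, z ^ 2 * ψ z = 0) :
    ∫ z in (0:ℝ)..1, z * ψ z * R z =
      -(∫ c in (0:ℝ)..1, (-(R2 c)) * (∫ z in (0:ℝ)..c, (c - z) * (z * ψ z))) := by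
  have hf0 : Continuous fun z : ℝ => z * ψ z := continuous_id.mul hψ
  have hf1 : Continuous fun z : ℝ => z ^ 2 * ψ z := (continuous_id.pow 2).mul hψ
  have hI0 : ∀ c : ℝ, HasDerivAt (fun u => ∫ z in (0:ℝ)..u, z * ψ z) (c * ψ c) c := fun c =>
    intervalIntegral.integral_hasDerivAt_right (hf0.intervalIntegrable _ _)
      (hf0.stronglyMeasurableAtFilter _ _) hf0.continuousAt
  have hI1 : ∀ c : ℝ, HasDerivAt (fun u => ∫ z in (0:ℝ)..u, z ^ 2 * ψ z) (c ^ 2 * ψ c) c :=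
    fun c => intervalIntegral.integral_hasDerivAt_right (hf1.intervalIntegrable _ _)
      (hf1.stronglyMeasurableAtFilter _ _) hf1.continuousAt
  have hWeq : (fun c : ℝ => ∫ z in (0:ℝ)..c, (c - z) * (z * ψ z))
      = fun c => c * (∫ z in (0:ℝ)..c, z * ψ z) - ∫ z in (0:ℝ)..c, z ^ 2 * ψ z := by
    funext c
    have i1 : IntervalIntegrable (fun z : ℝ => c * (z * ψ z)) volume 0 c :=
      (continuous_const.mul hf0 : Continuous fun z : ℝ => c * (z * ψ z)).intervalIntegrable _ _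
    have i2 : IntervalIntegrable (fun z : ℝ => z ^ 2 * ψ z) volume 0 c :=
      hf1.intervalIntegrable _ _
    rw [← intervalIntegral.integral_const_mul, ← intervalIntegral.integral_sub i1 i2]
    apply intervalIntegral.integral_congr
    intro z _
    ring
  have hW : ∀ c : ℝ, HasDerivAt (fun c : ℝ => ∫ z in (0:ℝ)..c, (c - z) * (z * ψ z))
      (∫ z in (0:ℝ)..c, z * ψ z) c := by
    intro c
    rw [hWeq]
    have h : HasDerivAt
        (fun c : ℝ => c * (∫ z in (0:ℝ)..c, z * ψ z) - ∫ z in (0:ℝ)..c, z ^ 2 * ψ z)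
        (1 * (∫ z in (0:ℝ)..c, z * ψ z) + c * (c * ψ c) - c ^ 2 * ψ c) c :=
      ((hasDerivAt_id' c).mul (hI0 c)).sub (hI1 c)
    have e : 1 * (∫ z in (0:ℝ)..c, z * ψ z) + c * (c * ψ c) - c ^ 2 * ψ c
        = ∫ z in (0:ℝ)..c, z * ψ z := by ring
    rw [e] at h
    exact h
  have hW0 : (fun c : ℝ => ∫ z in (0:ℝ)..c, (c - z) * (z * ψ z)) 0 = 0 :=
    intervalIntegral.integral_same
  have hW1 : (fun c : ℝ => ∫ z in (0:ℝ)..c, (c - z) * (z * ψ z)) 1 = 0 := by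
    rw [hWeq]
    simp only
    rw [h0, h1]
    ring
  have key := ibp2 R R1 R2 (fun c : ℝ => ∫ z in (0:ℝ)..c, (c - z) * (z * ψ z))
    (fun c => ∫ z in (0:ℝ)..c, z * ψ z) (fun c => c * ψ c) hR hR1 hR2 hW hI0 hf0 hW0 hW1
  simp only [intervalIntegral.integral_same, mul_zero, h0, sub_zero, zero_add] at key
  rw [← key, ← intervalIntegral.integral_neg]
  apply intervalIntegral.integral_congr
  intro z _
  simp only
  ring

/-! ### WPAIR -/

theorem wpair_gk_le (c z : ℝ) (hz : z ≤ c) : gk c z = z * (1 - c) := by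
  unfold gk
  exact min_eq_left (by nlinarith)

theorem wpair_gk_ge (c z : ℝ) (hz : c ≤ z) : gk c z = c * (1 - z) := by
  unfold gk
  exact min_eq_right (by nlinarith)

theorem W_pair (ψ : ℝ → ℝ) (hψ : Continuous ψ)
    (h0 : ∫ z in (0:ℝ)..1, z * ψ z = 0) (h1 : ∫ z in (0:ℝ)..1, z ^ 2 * ψ z = 0)
    (c : ℝ) (hc : c ∈ Icc (0:ℝ) 1) :
    -(∫ z in (0:ℝ)..c, (c - z) * (z * ψ z)) =
      ∫ z in (0:ℝ)..1, z * (gk c z - pk c z) * ψ z := by
  obtain ⟨hc0, hc1⟩ := hc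
  have hf0 : Continuous fun z : ℝ => z * ψ z := by fun_prop
  have hf1 : Continuous fun z : ℝ => z ^ 2 * ψ z := by fun_prop
  have hi0 : ∀ a b : ℝ, IntervalIntegrable (fun z : ℝ => z * ψ z) volume a b :=
    fun a b => hf0.intervalIntegrable a b
  have hi1 : ∀ a b : ℝ, IntervalIntegrable (fun z : ℝ => z ^ 2 * ψ z) volume a b :=
    fun a b => hf1.intervalIntegrable a b
  have hcont : Continuous fun z : ℝ => z * (gk c z - pk c z) * ψ z := by
    unfold gk pk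
    fun_prop
  have hsplit := integral_add_adjacent_intervals (hcont.intervalIntegrable (μ := volume) 0 c)
    (hcont.intervalIntegrable (μ := volume) c 1)
  have hs0 := integral_add_adjacent_intervals (hi0 0 c) (hi0 c 1)
  have hs1 := integral_add_adjacent_intervals (hi1 0 c) (hi1 c 1)
  rw [h0] at hs0
  rw [h1] at hs1
  have hL : ∫ z in (0:ℝ)..c, z * (gk c z - pk c z) * ψ z =
      (1 - c - c ^ 3 * (1 - c) + c * (1 - c) ^ 2 * (1 + 2 * c)) *
          (∫ z in (0:ℝ)..c, z ^ 2 * ψ z)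
        - (c * (1 - c) ^ 2 * (1 + 2 * c)) * (∫ z in (0:ℝ)..c, z * ψ z) := by
    rw [← intervalIntegral.integral_const_mul, ← intervalIntegral.integral_const_mul,
      ← intervalIntegral.integral_sub ((hi1 0 c).const_mul _) ((hi0 0 c).const_mul _)]
    refine intervalIntegral.integral_congr (fun z hz => ?_)
    rw [uIcc_of_le hc0] at hz
    show z * (gk c z - pk c z) * ψ z = _
    rw [wpair_gk_le c z hz.2]
    unfold pk
    ring
  have hR : ∫ z in c..1, z * (gk c z - pk c z) * ψ z =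
      (c - c * (1 - c) ^ 2 * (1 + 2 * c)) * (∫ z in c..1, z * ψ z)
        - (c - c * (1 - c) ^ 2 * (1 + 2 * c) + c ^ 3 * (1 - c)) *
          (∫ z in c..1, z ^ 2 * ψ z) := by
    rw [← intervalIntegral.integral_const_mul, ← intervalIntegral.integral_const_mul,
      ← intervalIntegral.integral_sub ((hi0 c 1).const_mul _) ((hi1 c 1).const_mul _)]
    refine intervalIntegral.integral_congr (fun z hz => ?_)
    rw [uIcc_of_le hc1] at hz
    show z * (gk c z - pk c z) * ψ z = _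
    rw [wpair_gk_ge c z hz.1]
    unfold pk
    ring
  have hLHS : ∫ z in (0:ℝ)..c, (c - z) * (z * ψ z) =
      c * (∫ z in (0:ℝ)..c, z * ψ z) - ∫ z in (0:ℝ)..c, z ^ 2 * ψ z := by
    rw [← intervalIntegral.integral_const_mul, ← intervalIntegral.integral_sub ((hi0 0 c).const_mul _) (hi1 0 c)]
    refine intervalIntegral.integral_congr (fun z _ => ?_)
    ring
  have e0 : ∫ z in c..1, z * ψ z = -(∫ z in (0:ℝ)..c, z * ψ z) := by linarith
  have e1 : ∫ z in c..1, z ^ 2 * ψ z = -(∫ z in (0:ℝ)..c, z ^ 2 * ψ z) := by linarith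
  rw [hLHS, ← hsplit, hL, hR, e0, e1]
  ring

/-! ### GNORM -/

theorem gnorm_int_cubic (p0 p1 p2 p3 a b : ℝ) :
    ∫ z in a..b, (p0 + p1 * z + p2 * z ^ 2 + p3 * z ^ 3) =
      p0 * (b - a) + p1 * (b ^ 2 - a ^ 2) / 2 + p2 * (b ^ 3 - a ^ 3) / 3
        + p3 * (b ^ 4 - a ^ 4) / 4 := by
  have hd : ∀ t ∈ Set.uIcc a b,
      HasDerivAt (fun t : ℝ => p0 * t + p1 * t ^ 2 / 2 + p2 * t ^ 3 / 3 + p3 * t ^ 4 / 4)
        (p0 + p1 * t + p2 * t ^ 2 + p3 * t ^ 3) t := by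
    intro t _
    have h1 : HasDerivAt (fun t : ℝ => p0 * t) p0 t := by
      simpa using (hasDerivAt_id t).const_mul p0
    have h2 : HasDerivAt (fun t : ℝ => p1 * t ^ 2 / 2) (p1 * t) t := by
      have h := ((hasDerivAt_pow 2 t).const_mul p1).div_const 2
      exact h.congr_deriv (by norm_num; ring)
    have h3 : HasDerivAt (fun t : ℝ => p2 * t ^ 3 / 3) (p2 * t ^ 2) t := by
      have h := ((hasDerivAt_pow 3 t).const_mul p2).div_const 3
      exact h.congr_deriv (by norm_num; ring)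
    have h4 : HasDerivAt (fun t : ℝ => p3 * t ^ 4 / 4) (p3 * t ^ 3) t := by
      have h := ((hasDerivAt_pow 4 t).const_mul p3).div_const 4
      exact h.congr_deriv (by norm_num; ring)
    exact ((h1.add h2).add h3).add h4
  rw [intervalIntegral.integral_eq_sub_of_hasDerivAt hd
    (Continuous.intervalIntegrable (by fun_prop) _ _)]
  ring

theorem gk_norm (c : ℝ) (hc : c ∈ Icc (0:ℝ) 1) :
    ∫ z in (0:ℝ)..1, z * (gk c z - pk c z) ^ 2 = c ^ 4 * (1 - c) ^ 3 * (1 + 3 * c) / 12 := by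
  obtain ⟨hc0, hc1⟩ := hc
  have hcont : Continuous (fun z : ℝ => z * (gk c z - pk c z) ^ 2) := by
    unfold gk pk
    fun_prop
  rw [← intervalIntegral.integral_add_adjacent_intervals (hcont.intervalIntegrable 0 c)
    (hcont.intervalIntegrable c 1)]
  have h1 : ∫ z in (0:ℝ)..c, z * (gk c z - pk c z) ^ 2
      = ∫ z in (0:ℝ)..c, (0 + (c * (1 - c) ^ 2 * (1 + 2 * c)) ^ 2 * z
          + (-(2 * (1 - c + c * (1 - c) ^ 2 * (1 + 2 * c) - c ^ 3 * (1 - c))
              * (c * (1 - c) ^ 2 * (1 + 2 * c)))) * z ^ 2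
          + (1 - c + c * (1 - c) ^ 2 * (1 + 2 * c) - c ^ 3 * (1 - c)) ^ 2 * z ^ 3) := by
    apply intervalIntegral.integral_congr
    intro z hz
    rw [uIcc_of_le hc0] at hz
    have hg : gk c z = z * (1 - c) := by
      unfold gk
      apply min_eq_left
      nlinarith [hz.1, hz.2]
    dsimp only
    rw [hg]
    unfold pk
    ring
  have h2 : ∫ z in c..(1:ℝ), z * (gk c z - pk c z) ^ 2
      = ∫ z in c..(1:ℝ), (0 + (c - c * (1 - c) ^ 2 * (1 + 2 * c)) ^ 2 * z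
          + (2 * (c - c * (1 - c) ^ 2 * (1 + 2 * c))
              * (c * (1 - c) ^ 2 * (1 + 2 * c) - c ^ 3 * (1 - c) - c)) * z ^ 2
          + (c * (1 - c) ^ 2 * (1 + 2 * c) - c ^ 3 * (1 - c) - c) ^ 2 * z ^ 3) := by
    apply intervalIntegral.integral_congr
    intro z hz
    rw [uIcc_of_le hc1] at hz
    have hg : gk c z = c * (1 - z) := by
      unfold gk
      apply min_eq_right
      nlinarith [hz.1, hz.2]
    dsimp only
    rw [hg]
    unfold pk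
    ring
  rw [h1, h2, gnorm_int_cubic, gnorm_int_cubic]
  ring

/-! ### CS: weighted Cauchy-Schwarz on `[0,1]` -/

theorem cs_weighted (u ψ : ℝ → ℝ) (hu : Continuous u) (hψ : Continuous ψ) :
    (∫ z in (0:ℝ)..1, z * u z * ψ z) ^ 2 ≤
      (∫ z in (0:ℝ)..1, z * (u z) ^ 2) * (∫ z in (0:ℝ)..1, z * (ψ z) ^ 2) := by
  have h1 : IntervalIntegrable (fun z => z * (u z) ^ 2) volume 0 1 :=
    (by fun_prop : Continuous fun z => z * (u z) ^ 2).intervalIntegrable _ _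
  have h2 : IntervalIntegrable (fun z => z * u z * ψ z) volume 0 1 :=
    (by fun_prop : Continuous fun z => z * u z * ψ z).intervalIntegrable _ _
  have h3 : IntervalIntegrable (fun z => z * (ψ z) ^ 2) volume 0 1 :=
    (by fun_prop : Continuous fun z => z * (ψ z) ^ 2).intervalIntegrable _ _
  have hquad : ∀ s : ℝ, 0 ≤ (∫ z in (0:ℝ)..1, z * (ψ z) ^ 2) * (s * s)
      + (2 * ∫ z in (0:ℝ)..1, z * u z * ψ z) * s + ∫ z in (0:ℝ)..1, z * (u z) ^ 2 := by
    intro s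
    have hnn : 0 ≤ ∫ z in (0:ℝ)..1, z * (u z + s * ψ z) ^ 2 := by
      apply intervalIntegral.integral_nonneg (by norm_num)
      intro z hz
      exact mul_nonneg hz.1 (sq_nonneg _)
    have hexp : ∫ z in (0:ℝ)..1, z * (u z + s * ψ z) ^ 2
        = (∫ z in (0:ℝ)..1, z * (ψ z) ^ 2) * (s * s)
          + (2 * ∫ z in (0:ℝ)..1, z * u z * ψ z) * s + ∫ z in (0:ℝ)..1, z * (u z) ^ 2 := by
      have e : (fun z => z * (u z + s * ψ z) ^ 2)
          = fun z => (s * s) * (z * (ψ z) ^ 2) + ((2 * s) * (z * u z * ψ z) + z * (u z) ^ 2) := by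
        funext z
        ring
      rw [e, intervalIntegral.integral_add (h3.const_mul _) ((h2.const_mul _).add h1),
        intervalIntegral.integral_add (h2.const_mul _) h1,
        intervalIntegral.integral_const_mul, intervalIntegral.integral_const_mul]
      ring
    rw [← hexp]
    exact hnn
  have hd := discrim_le_zero hquad
  unfold discrim at hd
  linarith [hd]

/-! ### WBND -/

theorem wbnd_cont (c : ℝ) : Continuous (fun z : ℝ => gk c z - pk c z) := by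
  have h1 : Continuous (fun z : ℝ => gk c z) := by
    unfold gk
    exact (continuous_id.mul continuous_const).min
      (continuous_const.mul (continuous_const.sub continuous_id))
  have h2 : Continuous (fun z : ℝ => pk c z) := by
    unfold pk
    fun_prop
  exact h1.sub h2

theorem wbnd_alg (c τ J S : ℝ) (hc0 : 0 ≤ c) (hc1 : c ≤ 1) (hτ : 0 < τ) (hS : 0 ≤ S)
    (hJ : J ^ 2 ≤ c ^ 4 * (1 - c) ^ 3 * (1 + 3 * c) / 12 * S) :
    |J| ≤ (c * (1 - c ^ 2) / 6) / (2 * τ) + 10 * τ * (c ^ 3 * (1 - c) ^ 2 / 20) * S := by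
  have h1c : 0 ≤ 1 - c := by linarith
  have hx : 0 ≤ (c * (1 - c ^ 2) / 6) / (2 * τ) := by
    have h2 : 0 ≤ 1 - c ^ 2 := by nlinarith
    positivity
  have hy : 0 ≤ 10 * τ * (c ^ 3 * (1 - c) ^ 2 / 20) * S := by positivity
  have hxy : 4 * ((c * (1 - c ^ 2) / 6) / (2 * τ)) * (10 * τ * (c ^ 3 * (1 - c) ^ 2 / 20) * S)
      = c ^ 4 * (1 - c) ^ 3 * (1 + c) / 6 * S := by
    field_simp
    ring
  have hP : 0 ≤ c ^ 4 * (1 - c) ^ 3 := by positivity
  have hle : c ^ 4 * (1 - c) ^ 3 * (1 + 3 * c) / 12 * S ≤ c ^ 4 * (1 - c) ^ 3 * (1 + c) / 6 * S := by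
    have h3 : c ^ 4 * (1 - c) ^ 3 * (1 + 3 * c) / 12 ≤ c ^ 4 * (1 - c) ^ 3 * (1 + c) / 6 := by
      have h4 : c ^ 4 * (1 - c) ^ 3 * (1 + c) / 6 - c ^ 4 * (1 - c) ^ 3 * (1 + 3 * c) / 12
          = c ^ 4 * (1 - c) ^ 3 * (1 - c) / 12 := by ring
      have h5 : 0 ≤ c ^ 4 * (1 - c) ^ 3 * (1 - c) / 12 := by positivity
      linarith
    exact mul_le_mul_of_nonneg_right h3 hS
  have hsq : J ^ 2 ≤ ((c * (1 - c ^ 2) / 6) / (2 * τ)
      + 10 * τ * (c ^ 3 * (1 - c) ^ 2 / 20) * S) ^ 2 := by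
    have h6 : 4 * ((c * (1 - c ^ 2) / 6) / (2 * τ)) * (10 * τ * (c ^ 3 * (1 - c) ^ 2 / 20) * S)
        ≤ ((c * (1 - c ^ 2) / 6) / (2 * τ) + 10 * τ * (c ^ 3 * (1 - c) ^ 2 / 20) * S) ^ 2 := by
      nlinarith [sq_nonneg ((c * (1 - c ^ 2) / 6) / (2 * τ)
        - 10 * τ * (c ^ 3 * (1 - c) ^ 2 / 20) * S)]
    linarith
  exact abs_le.mpr (abs_le_of_sq_le_sq' hsq (add_nonneg hx hy))

theorem W_bound (ψ : ℝ → ℝ) (hψ : Continuous ψ)
    (h0 : ∫ z in (0:ℝ)..1, z * ψ z = 0) (h1 : ∫ z in (0:ℝ)..1, z ^ 2 * ψ z = 0)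
    (c : ℝ) (hc : c ∈ Icc (0:ℝ) 1) (τ : ℝ) (hτ : 0 < τ) :
    |∫ z in (0:ℝ)..c, (c - z) * (z * ψ z)| ≤
      (c * (1 - c ^ 2) / 6) / (2 * τ)
        + 10 * τ * (c ^ 3 * (1 - c) ^ 2 / 20) * (∫ z in (0:ℝ)..1, z * (ψ z) ^ 2) := by
  have hpair := W_pair ψ hψ h0 h1 c hc
  have hcs := cs_weighted (fun z : ℝ => gk c z - pk c z) ψ (wbnd_cont c) hψ
  have hnorm := gk_norm c hc
  have hS : 0 ≤ ∫ z in (0:ℝ)..1, z * (ψ z) ^ 2 := by
    apply intervalIntegral.integral_nonneg (by norm_num)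
    intro z hz
    exact mul_nonneg hz.1 (sq_nonneg _)
  have hJ : (∫ z in (0:ℝ)..1, z * (gk c z - pk c z) * ψ z) ^ 2 ≤
      c ^ 4 * (1 - c) ^ 3 * (1 + 3 * c) / 12 * (∫ z in (0:ℝ)..1, z * (ψ z) ^ 2) := by
    rw [← hnorm]
    exact hcs
  have hfin := wbnd_alg c τ (∫ z in (0:ℝ)..1, z * (gk c z - pk c z) * ψ z)
    (∫ z in (0:ℝ)..1, z * (ψ z) ^ 2) hc.1 hc.2 hτ hS hJ
  rw [← hpair, abs_neg] at hfin
  exact hfin

/-! ### F4: the quadratic inequality -/

theorem f4_W_cont (ψ : ℝ → ℝ) (hψ : Continuous ψ) :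
    Continuous (fun c : ℝ => ∫ z in (0:ℝ)..c, (c - z) * (z * ψ z)) := by
  have h1 : ∀ c : ℝ, ∫ z in (0:ℝ)..c, (c - z) * (z * ψ z) =
      c * (∫ z in (0:ℝ)..c, z * ψ z) - ∫ z in (0:ℝ)..c, z * (z * ψ z) := by
    intro c
    rw [← intervalIntegral.integral_const_mul, ← intervalIntegral.integral_sub]
    · apply intervalIntegral.integral_congr
      intro z _
      ring
    · exact (by fun_prop : Continuous fun z => c * (z * ψ z)).intervalIntegrable _ _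
    · exact (by fun_prop : Continuous fun z => z * (z * ψ z)).intervalIntegrable _ _
  have h2 : Continuous (fun c : ℝ => ∫ z in (0:ℝ)..c, z * ψ z) :=
    intervalIntegral.continuous_primitive
      (fun a b => (by fun_prop : Continuous fun z => z * ψ z).intervalIntegrable a b) 0
  have h3 : Continuous (fun c : ℝ => ∫ z in (0:ℝ)..c, z * (z * ψ z)) :=
    intervalIntegral.continuous_primitive
      (fun a b => (by fun_prop : Continuous fun z => z * (z * ψ z)).intervalIntegrable a b) 0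
  have h4 : (fun c : ℝ => ∫ z in (0:ℝ)..c, (c - z) * (z * ψ z)) =
      fun c => c * (∫ z in (0:ℝ)..c, z * ψ z) - ∫ z in (0:ℝ)..c, z * (z * ψ z) := funext h1
  rw [h4]
  exact (continuous_id.mul h2).sub h3

theorem f4_core (R R1 R2 ψ : ℝ → ℝ)
    (hR : ∀ x, HasDerivAt R (R1 x) x) (hR1 : ∀ x, HasDerivAt R1 (R2 x) x)
    (hR2 : Continuous R2)
    (hpos : ∀ z ∈ Icc (0:ℝ) 1, 0 ≤ R z) (hcc : ∀ z ∈ Icc (0:ℝ) 1, R2 z ≤ 0)
    (hψ : Continuous ψ)
    (h0 : ∫ z in (0:ℝ)..1, z * ψ z = 0) (h1 : ∫ z in (0:ℝ)..1, z ^ 2 * ψ z = 0)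
    (hSeq : ∫ z in (0:ℝ)..1, z * (ψ z) ^ 2 = ∫ z in (0:ℝ)..1, z * ψ z * R z) :
    ∫ z in (0:ℝ)..1, z * (ψ z) ^ 2 ≤
      20 * mA R * (6 / 5 * mM1 R - 3 / 10 * mA R - mM2 R) := by
  have hS0 : 0 ≤ ∫ z in (0:ℝ)..1, z * (ψ z) ^ 2 :=
    intervalIntegral.integral_nonneg (by norm_num) (fun z hz => mul_nonneg hz.1 (sq_nonneg _))
  have hW := W_ibp R R1 R2 ψ hR hR1 hR2 hψ h0 h1
  have hWc : Continuous (fun c : ℝ => ∫ z in (0:ℝ)..c, (c - z) * (z * ψ z)) := f4_W_cont ψ hψ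
  have hl := l_eq R R1 R2 hR hR1 hR2
  have hA := A_eq R R1 R2 hR hR1 hR2
  obtain ⟨S, hS⟩ : ∃ S : ℝ, S = ∫ z in (0:ℝ)..1, z * (ψ z) ^ 2 := ⟨_, rfl⟩
  obtain ⟨l, hldef⟩ : ∃ l : ℝ, l = 6 / 5 * mM1 R - 3 / 10 * mA R - mM2 R := ⟨_, rfl⟩
  obtain ⟨W, hWdef⟩ : ∃ W : ℝ → ℝ, W = fun c : ℝ => ∫ z in (0:ℝ)..c, (c - z) * (z * ψ z) :=
    ⟨_, rfl⟩
  have hWc' : Continuous W := by rw [hWdef]; exact hWc
  rw [← hS, ← hldef]
  rw [← hS] at hS0 hSeq
  rw [← hldef] at hl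
  have hS2 : S = ∫ c in (0:ℝ)..1, (-(R2 c)) * (-(W c)) := by
    rw [hSeq, hW, ← intervalIntegral.integral_neg]
    apply intervalIntegral.integral_congr
    intro c _
    simp only [hWdef]
    ring
  have hIa : ∫ c in (0:ℝ)..1, (-(R2 c)) * (c * (1 - c ^ 2) / 6) = mA R - R 0 / 6 - R 1 / 3 := by
    linarith [hA]
  have hR0 : 0 ≤ R 0 := hpos 0 (by simp)
  have hR1' : 0 ≤ R 1 := hpos 1 (by simp)
  have key : ∀ τ : ℝ, 0 < τ → S ≤ mA R / (2 * τ) + 10 * τ * l * S := by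
    intro τ hτ
    have hmono : ∫ c in (0:ℝ)..1, (-(R2 c)) * (-(W c)) ≤
        ∫ c in (0:ℝ)..1, ((-(R2 c)) * (c * (1 - c ^ 2) / 6)) * (1 / (2 * τ))
          + (10 * τ * S) * ((-(R2 c)) * (c ^ 3 * (1 - c) ^ 2 / 20)) := by
      apply intervalIntegral.integral_mono_on (by norm_num)
      · exact (by fun_prop : Continuous fun c => (-(R2 c)) * (-(W c))).intervalIntegrable _ _
      · exact (by fun_prop : Continuous fun c =>
          ((-(R2 c)) * (c * (1 - c ^ 2) / 6)) * (1 / (2 * τ))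
            + (10 * τ * S) * ((-(R2 c)) * (c ^ 3 * (1 - c) ^ 2 / 20))).intervalIntegrable _ _
      · intro c hc
        have hρ : 0 ≤ -(R2 c) := by linarith [hcc c hc]
        have hb := W_bound ψ hψ h0 h1 c hc τ hτ
        rw [← hS] at hb
        have hb' : -(W c) ≤ (c * (1 - c ^ 2) / 6) / (2 * τ)
            + 10 * τ * (c ^ 3 * (1 - c) ^ 2 / 20) * S := by
          have h5 : W c = ∫ z in (0:ℝ)..c, (c - z) * (z * ψ z) := by rw [hWdef]
          rw [h5]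
          exact le_trans (neg_le_abs _) hb
        calc (-(R2 c)) * (-(W c))
            ≤ (-(R2 c)) * ((c * (1 - c ^ 2) / 6) / (2 * τ)
              + 10 * τ * (c ^ 3 * (1 - c) ^ 2 / 20) * S) := mul_le_mul_of_nonneg_left hb' hρ
          _ = ((-(R2 c)) * (c * (1 - c ^ 2) / 6)) * (1 / (2 * τ))
              + (10 * τ * S) * ((-(R2 c)) * (c ^ 3 * (1 - c) ^ 2 / 20)) := by ring
    have hint : ∫ c in (0:ℝ)..1, ((-(R2 c)) * (c * (1 - c ^ 2) / 6)) * (1 / (2 * τ))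
          + (10 * τ * S) * ((-(R2 c)) * (c ^ 3 * (1 - c) ^ 2 / 20)) =
        (∫ c in (0:ℝ)..1, (-(R2 c)) * (c * (1 - c ^ 2) / 6)) * (1 / (2 * τ))
          + (10 * τ * S) * ∫ c in (0:ℝ)..1, (-(R2 c)) * (c ^ 3 * (1 - c) ^ 2 / 20) := by
      rw [intervalIntegral.integral_add, intervalIntegral.integral_mul_const,
        intervalIntegral.integral_const_mul]
      · exact (by fun_prop : Continuous fun c =>
          ((-(R2 c)) * (c * (1 - c ^ 2) / 6)) * (1 / (2 * τ))).intervalIntegrable _ _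
      · exact (by fun_prop : Continuous fun c =>
          (10 * τ * S) * ((-(R2 c)) * (c ^ 3 * (1 - c) ^ 2 / 20))).intervalIntegrable _ _
    have h6 : (mA R - R 0 / 6 - R 1 / 3) * (1 / (2 * τ)) ≤ mA R * (1 / (2 * τ)) :=
      mul_le_mul_of_nonneg_right (by linarith) (by positivity)
    calc S = ∫ c in (0:ℝ)..1, (-(R2 c)) * (-(W c)) := hS2
      _ ≤ ∫ c in (0:ℝ)..1, ((-(R2 c)) * (c * (1 - c ^ 2) / 6)) * (1 / (2 * τ))
          + (10 * τ * S) * ((-(R2 c)) * (c ^ 3 * (1 - c) ^ 2 / 20)) := hmono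
      _ = (∫ c in (0:ℝ)..1, (-(R2 c)) * (c * (1 - c ^ 2) / 6)) * (1 / (2 * τ))
          + (10 * τ * S) * ∫ c in (0:ℝ)..1, (-(R2 c)) * (c ^ 3 * (1 - c) ^ 2 / 20) := hint
      _ = (mA R - R 0 / 6 - R 1 / 3) * (1 / (2 * τ)) + (10 * τ * S) * l := by rw [hIa, ← hl]
      _ ≤ mA R * (1 / (2 * τ)) + (10 * τ * S) * l := by linarith
      _ = mA R / (2 * τ) + 10 * τ * l * S := by ring
  have hl0 : 0 ≤ l := by
    rw [hl]
    apply intervalIntegral.integral_nonneg (by norm_num)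
    intro c hc
    have hρ : 0 ≤ -(R2 c) := by linarith [hcc c hc]
    have h7 : 0 ≤ c ^ 3 * (1 - c) ^ 2 / 20 := by
      have h8 := hc.1
      positivity
    exact mul_nonneg hρ h7
  have hA0 : 0 ≤ mA R := by
    unfold mA
    apply intervalIntegral.integral_nonneg (by norm_num)
    intro z hz
    exact mul_nonneg hz.1 (hpos z hz)
  rcases eq_or_lt_of_le hl0 with hl1 | hl1
  · have hS_le : S ≤ 0 := by
      by_contra hcon
      push Not at hcon
      have hτ : 0 < (mA R + 1) / S := by positivity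
      have h9 := key _ hτ
      rw [← hl1] at h9
      have e : mA R / (2 * ((mA R + 1) / S)) = mA R * S / (2 * (mA R + 1)) := by
        field_simp
      rw [e] at h9
      have h10 : mA R * S / (2 * (mA R + 1)) ≤ S / 2 := by
        rw [div_le_div_iff₀ (by positivity) (by norm_num)]
        nlinarith
      linarith
    have h11 : 20 * mA R * l = 0 := by
      rw [← hl1]
      ring
    linarith
  · have hτ : 0 < 1 / (20 * l) := by positivity
    have h9 := key _ hτ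
    have e1 : mA R / (2 * (1 / (20 * l))) = 10 * mA R * l := by
      field_simp
      ring
    have e2 : 10 * (1 / (20 * l)) * l * S = S / 2 := by
      field_simp
      ring
    rw [e1, e2] at h9
    linarith

theorem F4 (R R1 R2 : ℝ → ℝ)
    (hR : ∀ x, HasDerivAt R (R1 x) x) (hR1 : ∀ x, HasDerivAt R1 (R2 x) x)
    (hR2 : Continuous R2)
    (hpos : ∀ z ∈ Icc (0:ℝ) 1, 0 ≤ R z) (hcc : ∀ z ∈ Icc (0:ℝ) 1, R2 z ≤ 0) :
    ∫ z in (0:ℝ)..1, z * (R z - ((18 * mA R - 24 * mM1 R) * (1 - z)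
        + (12 * mM1 R - 6 * mA R) * z)) ^ 2 ≤
      20 * mA R * (6 / 5 * mM1 R - 3 / 10 * mA R - mM2 R) := by
  have hRc : Continuous R := continuous_iff_continuousAt.mpr (fun x => (hR x).continuousAt)
  exact f4_core R R1 R2
    (fun z => R z - ((18 * mA R - 24 * mM1 R) * (1 - z) + (12 * mM1 R - 6 * mA R) * z))
    hR hR1 hR2 hpos hcc (by fun_prop) (psi_orth0 R hRc) (psi_orth1 R hRc) (Spsi_eq R hRc)

/-! ### F5 -/

theorem f5_norm (t y x : ℝ) (ht0 : 0 ≤ t) (ht1 : t ≤ 1 / 2) (hx0 : 0 ≤ x)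
    (hx : x ≤ 3 - 6 * t + 9 * t ^ 2 + 30 * y) :
    80 * ((1 + t) / 2) ^ 2 * x ^ 2 * ((1 + 2 * t - 5 * t ^ 2) / 20 - y) ≤ 9 := by
  by_cases hY : (1 + 2 * t - 5 * t ^ 2) / 20 - y ≤ 0
  · have h1 : 0 ≤ 80 * ((1 + t) / 2) ^ 2 * x ^ 2 := by positivity
    have h2 : 80 * ((1 + t) / 2) ^ 2 * x ^ 2 * ((1 + 2 * t - 5 * t ^ 2) / 20 - y) ≤ 0 :=
      mul_nonpos_of_nonneg_of_nonpos h1 hY
    linarith
  · have hY' : 0 < (1 + 2 * t - 5 * t ^ 2) / 20 - y := lt_of_not_ge hY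
    obtain ⟨X, hX⟩ : ∃ X : ℝ, X = 3 - 6 * t + 9 * t ^ 2 + 30 * y := ⟨_, rfl⟩
    obtain ⟨Y, hYd⟩ : ∃ Y : ℝ, Y = 30 * ((1 + 2 * t - 5 * t ^ 2) / 20 - y) := ⟨_, rfl⟩
    rw [← hX] at hx
    have hYpos : 0 < Y := by rw [hYd]; exact mul_pos (by norm_num) hY'
    have hX0 : 0 ≤ X := hx0.trans hx
    have hsum : X + Y = 3 / 2 * (3 - 2 * t + t ^ 2) := by rw [hX, hYd]; ring
    have hamgm : 27 * (X ^ 2 * Y) ≤ 4 * (X + Y) ^ 3 := by
      have h0 : 0 ≤ (X - 2 * Y) ^ 2 * (4 * X + Y) :=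
        mul_nonneg (sq_nonneg _) (by linarith)
      have h1 : 4 * (X + Y) ^ 3 - 27 * (X ^ 2 * Y) = (X - 2 * Y) ^ 2 * (4 * X + Y) := by ring
      linarith
    have hx2 : x ^ 2 ≤ X ^ 2 := pow_le_pow_left₀ hx0 hx 2
    have hpoly : (1 + t) ^ 2 * (3 - 2 * t + t ^ 2) ^ 3 ≤ 27 := by
      have hid : 27 - (1 + t) ^ 2 * (3 - 2 * t + t ^ 2) ^ 3
          = t ^ 2 * (18 - 28 * t + 4 * t ^ 2 + 8 * t ^ 3 - 10 * t ^ 4 + 4 * t ^ 5 - t ^ 6) := by
        ring
      have hq : 0 ≤ 18 - 28 * t + 4 * t ^ 2 + 8 * t ^ 3 - 10 * t ^ 4 + 4 * t ^ 5 - t ^ 6 := by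
        have h2 : t ^ 2 ≤ 1 / 4 := by nlinarith
        have h3 : 0 ≤ t ^ 3 := by positivity
        have h4 : 10 * t ^ 4 ≤ 4 * t ^ 2 := by nlinarith [sq_nonneg t]
        have h5 : t ^ 6 ≤ 4 * t ^ 5 := by
          have h6 : 0 ≤ t ^ 5 := by positivity
          nlinarith
        nlinarith
      have := mul_nonneg (sq_nonneg t) hq
      linarith
    have e1 : 80 * ((1 + t) / 2) ^ 2 * x ^ 2 * ((1 + 2 * t - 5 * t ^ 2) / 20 - y)
        = 2 / 3 * ((1 + t) ^ 2 * (x ^ 2 * Y)) := by rw [hYd]; ring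
    have e2 : x ^ 2 * Y ≤ X ^ 2 * Y := mul_le_mul_of_nonneg_right hx2 hYpos.le
    have e3 : X ^ 2 * Y ≤ 1 / 2 * (3 - 2 * t + t ^ 2) ^ 3 := by
      have h1 : 4 * (X + Y) ^ 3 = 27 / 2 * (3 - 2 * t + t ^ 2) ^ 3 := by rw [hsum]; ring
      linarith
    have e4 : 0 ≤ (1 + t) ^ 2 := by positivity
    have e5 : (1 + t) ^ 2 * (x ^ 2 * Y) ≤ (1 + t) ^ 2 * (1 / 2 * (3 - 2 * t + t ^ 2) ^ 3) :=
      mul_le_mul_of_nonneg_left (e2.trans e3) e4
    have e6 : (1 + t) ^ 2 * (1 / 2 * (3 - 2 * t + t ^ 2) ^ 3)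
        = 1 / 2 * ((1 + t) ^ 2 * (3 - 2 * t + t ^ 2) ^ 3) := by ring
    rw [e1]
    linarith

theorem F5_alg (A M1 M2 S : ℝ) (hA : 0 ≤ A) (hS : 0 ≤ S)
    (hal : 0 ≤ 18 * A - 24 * M1) (hbe : 0 ≤ 12 * M1 - 6 * A)
    (hl : 0 ≤ 6 / 5 * M1 - 3 / 10 * A - M2)
    (hSle : S ≤ (18 * A - 24 * M1) ^ 2 / 12 + (18 * A - 24 * M1) * (12 * M1 - 6 * A) / 6
      + (12 * M1 - 6 * A) ^ 2 / 4 + 30 * A * (6 / 5 * M1 - 3 / 10 * A - M2)) :
    80 * M1 ^ 2 * S ^ 2 * (A * M2 - M1 ^ 2) ≤ 9 * A ^ 8 := by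
  have _hl := hl
  rcases hA.eq_or_lt with hA0 | hApos
  · have hM : M1 = 0 := by
      rw [← hA0] at hal hbe
      linarith
    rw [← hA0, hM]
    norm_num
  · have hAne : A ≠ 0 := hApos.ne'
    have ht0 : 0 ≤ 2 * M1 / A - 1 := by
      rw [sub_nonneg, le_div_iff₀ hApos]; linarith
    have ht1 : 2 * M1 / A - 1 ≤ 1 / 2 := by
      rw [sub_le_iff_le_add, div_le_iff₀ hApos]; linarith
    have hx0 : 0 ≤ S / A ^ 2 := div_nonneg hS (sq_nonneg A)
    have hrhs : (3 - 6 * (2 * M1 / A - 1) + 9 * (2 * M1 / A - 1) ^ 2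
        + 30 * ((6 / 5 * M1 - 3 / 10 * A - M2) / A)) * A ^ 2
        = (18 * A - 24 * M1) ^ 2 / 12 + (18 * A - 24 * M1) * (12 * M1 - 6 * A) / 6
          + (12 * M1 - 6 * A) ^ 2 / 4 + 30 * A * (6 / 5 * M1 - 3 / 10 * A - M2) := by
      field_simp
      ring
    have hx : S / A ^ 2 ≤ 3 - 6 * (2 * M1 / A - 1) + 9 * (2 * M1 / A - 1) ^ 2
        + 30 * ((6 / 5 * M1 - 3 / 10 * A - M2) / A) := by
      rw [div_le_iff₀ (by positivity), hrhs]
      exact hSle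
    have key := f5_norm (2 * M1 / A - 1) ((6 / 5 * M1 - 3 / 10 * A - M2) / A) (S / A ^ 2)
      ht0 ht1 hx0 hx
    have hid : 80 * M1 ^ 2 * S ^ 2 * (A * M2 - M1 ^ 2)
        = A ^ 8 * (80 * ((1 + (2 * M1 / A - 1)) / 2) ^ 2 * (S / A ^ 2) ^ 2
          * ((1 + 2 * (2 * M1 / A - 1) - 5 * (2 * M1 / A - 1) ^ 2) / 20
            - (6 / 5 * M1 - 3 / 10 * A - M2) / A)) := by
      field_simp
      ring
    rw [hid]
    have h8 : 0 ≤ A ^ 8 := by positivity
    have := mul_le_mul_of_nonneg_left key h8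
    linarith

/-! ### Assembly -/

/-- **(RAMP).** For `R ≥ 0` with `R'' ≤ 0` on `[0,1]`:
`80 (∫ z² R)² (∫ z R²)² ((∫ z R)(∫ z³ R) - (∫ z² R)²) ≤ 9 (∫ z R)⁸`. -/
theorem ramp_ineq (R R1 R2 : ℝ → ℝ)
    (hR : ∀ x, HasDerivAt R (R1 x) x) (hR1 : ∀ x, HasDerivAt R1 (R2 x) x)
    (hR2 : Continuous R2)
    (hpos : ∀ z ∈ Icc (0:ℝ) 1, 0 ≤ R z) (hcc : ∀ z ∈ Icc (0:ℝ) 1, R2 z ≤ 0) :
    80 * (mM1 R) ^ 2 * (mS R) ^ 2 * (mA R * mM2 R - (mM1 R) ^ 2) ≤ 9 * (mA R) ^ 8 := by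
  have hRc : Continuous R := continuous_iff_continuousAt.2 fun x => (hR x).continuousAt
  have h01 : (0:ℝ) ≤ 1 := zero_le_one
  have hR0 : 0 ≤ R 0 := hpos 0 ⟨le_rfl, h01⟩
  have hR1' : 0 ≤ R 1 := hpos 1 ⟨h01, le_rfl⟩
  have hA : 0 ≤ mA R := by
    unfold mA
    apply intervalIntegral.integral_nonneg h01
    intro z hz
    exact mul_nonneg hz.1 (hpos z hz)
  have hS : 0 ≤ mS R := by
    unfold mS
    apply intervalIntegral.integral_nonneg h01
    intro z hz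
    exact mul_nonneg hz.1 (sq_nonneg _)
  have hal : 0 ≤ 18 * mA R - 24 * mM1 R := by
    rw [al_eq R R1 R2 hR hR1 hR2]
    have : 0 ≤ ∫ c in (0:ℝ)..1, (-(R2 c)) * (c * (1 - c) ^ 2 * (1 + 2 * c)) := by
      apply intervalIntegral.integral_nonneg h01
      intro c hc
      have h1 : 0 ≤ -(R2 c) := neg_nonneg.2 (hcc c hc)
      have h2 : 0 ≤ c * (1 - c) ^ 2 * (1 + 2 * c) := by
        have := hc.1
        positivity
      exact mul_nonneg h1 h2
    linarith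
  have hbe : 0 ≤ 12 * mM1 R - 6 * mA R := by
    rw [be_eq R R1 R2 hR hR1 hR2]
    have : 0 ≤ ∫ c in (0:ℝ)..1, (-(R2 c)) * (c ^ 3 * (1 - c)) := by
      apply intervalIntegral.integral_nonneg h01
      intro c hc
      have h1 : 0 ≤ -(R2 c) := neg_nonneg.2 (hcc c hc)
      have h2 : 0 ≤ c ^ 3 * (1 - c) := by
        have h3 := hc.1
        have h4 : 0 ≤ 1 - c := by linarith [hc.2]
        positivity
      exact mul_nonneg h1 h2
    linarith
  have hl : 0 ≤ 6 / 5 * mM1 R - 3 / 10 * mA R - mM2 R := by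
    rw [l_eq R R1 R2 hR hR1 hR2]
    apply intervalIntegral.integral_nonneg h01
    intro c hc
    have h1 : 0 ≤ -(R2 c) := neg_nonneg.2 (hcc c hc)
    have h2 : 0 ≤ c ^ 3 * (1 - c) ^ 2 / 20 := by
      have := hc.1
      positivity
    exact mul_nonneg h1 h2
  have hF4 := F4 R R1 R2 hR hR1 hR2 hpos hcc
  have hsplit := S_split R hRc
  have hSle : mS R ≤ (18 * mA R - 24 * mM1 R) ^ 2 / 12
      + (18 * mA R - 24 * mM1 R) * (12 * mM1 R - 6 * mA R) / 6
      + (12 * mM1 R - 6 * mA R) ^ 2 / 4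
      + 30 * mA R * (6 / 5 * mM1 R - 3 / 10 * mA R - mM2 R) := by
    have h30 : 20 * mA R * (6 / 5 * mM1 R - 3 / 10 * mA R - mM2 R)
        ≤ 30 * mA R * (6 / 5 * mM1 R - 3 / 10 * mA R - mM2 R) := by
      have := mul_nonneg hA hl
      nlinarith
    linarith
  exact F5_alg (mA R) (mM1 R) (mM2 R) (mS R) hA hS hal hbe hl hSle

end Vale.Agent.Lib.P254.Ramp
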