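import Vale.Agent.Lib.P254.Defs

/-!
# P254, wedge class: rectangles in the plane

The rectangle `[-a,a] × [-b,b]` in `ℝ²`, its area and the integrals of `|y 0|` and `|y 1|`
over it.
-/

open MeasureTheory Set

namespace Vale.Agent.Lib.P254.Ramp

open Vale.Agent.Lib.P254

/-- The rectangle `[-a,a] × [-b,b]` in `ℝ²`. -/
def rect (a b : ℝ) : Set (Fin 2 → ℝ) := {y | |y 0| ≤ a ∧ |y 1| ≤ b}

theorem rect_eq_preimage (a b : ℝ) :
    rect a b = MeasurableEquiv.finTwoArrow ⁻¹' (Icc (-a) a ×ˢ Icc (-b) b) := by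
  ext y
  constructor
  · rintro ⟨h0, h1⟩
    exact ⟨abs_le.mp h0, abs_le.mp h1⟩
  · rintro ⟨h0, h1⟩
    exact ⟨abs_le.mpr h0, abs_le.mpr h1⟩

theorem measurableSet_rect (a b : ℝ) : MeasurableSet (rect a b) := by
  rw [rect_eq_preimage]
  exact MeasurableEquiv.finTwoArrow.measurable (measurableSet_Icc.prod measurableSet_Icc)

theorem rect_empty_of_neg {a : ℝ} (b : ℝ) (ha : a < 0) : rect a b = ∅ := by
  ext y
  constructor
  · rintro ⟨h, _⟩
    exact absurd (le_trans (abs_nonneg _) h) (not_le.mpr ha)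
  · intro h
    exact False.elim h

/-- The area of the rectangle. -/
theorem vol_rect {a b : ℝ} (ha : 0 ≤ a) (hb : 0 ≤ b) : vol (rect a b) = 4 * a * b := by
  unfold vol
  rw [rect_eq_preimage, (volume_preserving_finTwoArrow ℝ).measure_preimage
    (measurableSet_Icc.prod measurableSet_Icc).nullMeasurableSet, Measure.volume_eq_prod,
    Measure.prod_prod, Real.volume_Icc, Real.volume_Icc,
    ENNReal.toReal_mul, ENNReal.toReal_ofReal (by linarith), ENNReal.toReal_ofReal (by linarith)]
  ring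

/-- Integrals of products over the rectangle. -/
theorem int_rect (f g : ℝ → ℝ) (a b : ℝ) :
    ∫ y in rect a b, f (y 0) * g (y 1) =
      (∫ x in Icc (-a) a, f x) * ∫ x in Icc (-b) b, g x := by
  rw [rect_eq_preimage]
  have h := (volume_preserving_finTwoArrow ℝ).setIntegral_preimage_emb
    (MeasurableEquiv.finTwoArrow).measurableEmbedding (fun z : ℝ × ℝ => f z.1 * g z.2)
    (Icc (-a) a ×ˢ Icc (-b) b)
  rw [Measure.volume_eq_prod, setIntegral_prod_mul] at h
  exact h

theorem int_abs_Icc {a : ℝ} (ha : 0 ≤ a) : ∫ x in Icc (-a) a, |x| = a ^ 2 := by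
  rw [integral_Icc_eq_integral_Ioc, ← intervalIntegral.integral_of_le (by linarith),
    ← intervalIntegral.integral_add_adjacent_intervals (b := 0)
      (continuous_abs.intervalIntegrable _ _) (continuous_abs.intervalIntegrable _ _)]
  have h1 : ∫ x in (-a)..0, |x| = ∫ x in (-a)..0, -x :=
    intervalIntegral.integral_congr (fun x hx => by
      rw [uIcc_of_le (by linarith)] at hx
      exact abs_of_nonpos hx.2)
  have h2 : ∫ x in (0:ℝ)..a, |x| = ∫ x in (0:ℝ)..a, x :=
    intervalIntegral.integral_congr (fun x hx => by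
      rw [uIcc_of_le ha] at hx
      exact abs_of_nonneg hx.1)
  rw [h1, h2, intervalIntegral.integral_neg, integral_id, integral_id]
  ring

theorem int_one_Icc {b : ℝ} (hb : 0 ≤ b) : ∫ _x in Icc (-b) b, (1 : ℝ) = 2 * b := by
  rw [setIntegral_const, Measure.real, Real.volume_Icc, ENNReal.toReal_ofReal (by linarith)]
  simp only [smul_eq_mul, mul_one]
  ring

/-- The integral of `|y 0|` over the rectangle. -/
theorem int_abs0_rect {a b : ℝ} (ha : 0 ≤ a) (hb : 0 ≤ b) :
    ∫ y in rect a b, |y 0| = 2 * a ^ 2 * b := by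
  have h := int_rect (fun x => |x|) (fun _ => (1 : ℝ)) a b
  simp only [mul_one] at h
  rw [h, int_abs_Icc ha, int_one_Icc hb]
  ring

/-- The integral of `|y 1|` over the rectangle. -/
theorem int_abs1_rect {a b : ℝ} (ha : 0 ≤ a) (hb : 0 ≤ b) :
    ∫ y in rect a b, |y 1| = 2 * a * b ^ 2 := by
  have h := int_rect (fun _ => (1 : ℝ)) (fun x => |x|) a b
  simp only [one_mul] at h
  rw [h, int_abs_Icc hb, int_one_Icc ha]

end Vale.Agent.Lib.P254.Ramp
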